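import Mathlib
import Vale.Agent.P030.T.Defs

/-!
# P030, odd primes: coefficientwise `p`-adic bounds for power series

`VN p e N f`: the coefficients of `f` of index `< N` have valuation at least `e`.
-/

set_option linter.unusedSectionVars false
set_option linter.unnecessarySimpa false

open PowerSeries

namespace Vale.Agent.P030.H392

open Vale.Agent.P030.T

/-- all coefficients of `f` of index `< N` have `p`-adic norm at most `p^(-e)` -/
def VN (p : ℕ) (e : ℤ) (N : ℕ) (f : ℚ⟦X⟧) : Prop :=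
  ∀ m < N, padicNorm p (coeff m f) ≤ (p : ℚ) ^ (-e)

section
variable {p : ℕ} [hp : Fact p.Prime]

omit hp in
theorem zpow_nonneg' (e : ℤ) : (0 : ℚ) ≤ (p : ℚ) ^ e := zpow_nonneg (Nat.cast_nonneg _) _

theorem one_le_p : (1 : ℚ) ≤ (p : ℚ) := by
  exact_mod_cast hp.out.one_lt.le

theorem p_ne : (p : ℚ) ≠ 0 := by
  exact_mod_cast hp.out.ne_zero

theorem VN.mono {e e' : ℤ} {N N' : ℕ} {f : ℚ⟦X⟧} (h : VN p e N f) (he : e' ≤ e) (hN : N' ≤ N) :
    VN p e' N' f := by
  intro m hm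
  refine (h m (lt_of_lt_of_le hm hN)).trans ?_
  exact zpow_le_zpow_right₀ one_le_p (by linarith)

omit hp in
theorem VN.zero {e : ℤ} {N : ℕ} : VN p e N 0 := by
  intro m _
  simpa using zpow_nonneg' (-e)

theorem VN.add {e : ℤ} {N : ℕ} {f g : ℚ⟦X⟧} (hf : VN p e N f) (hg : VN p e N g) :
    VN p e N (f + g) := by
  intro m hm
  rw [map_add]
  exact padicNorm.nonarchimedean.trans (max_le (hf m hm) (hg m hm))

omit hp in
theorem VN.neg {e : ℤ} {N : ℕ} {f : ℚ⟦X⟧} (hf : VN p e N f) : VN p e N (-f) := by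
  intro m hm
  rw [map_neg, padicNorm.neg]
  exact hf m hm

theorem VN.sub {e : ℤ} {N : ℕ} {f g : ℚ⟦X⟧} (hf : VN p e N f) (hg : VN p e N g) :
    VN p e N (f - g) := by
  rw [sub_eq_add_neg]
  exact hf.add hg.neg

theorem VN.sum {e : ℤ} {N : ℕ} {ι : Type*} (s : Finset ι) {f : ι → ℚ⟦X⟧}
    (hf : ∀ i ∈ s, VN p e N (f i)) : VN p e N (∑ i ∈ s, f i) := by
  intro m hm
  rw [map_sum]
  exact padicNorm.sum_le' (fun i hi => hf i hi m hm) (zpow_nonneg' _)

theorem VN.mul {e₁ e₂ : ℤ} {N : ℕ} {f g : ℚ⟦X⟧} (hf : VN p e₁ N f) (hg : VN p e₂ N g) :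
    VN p (e₁ + e₂) N (f * g) := by
  intro m hm
  rw [coeff_mul]
  refine padicNorm.sum_le' (fun i hi => ?_) (zpow_nonneg' _)
  have h1 : i.1 + i.2 = m := Finset.HasAntidiagonal.mem_antidiagonal.1 hi
  rw [padicNorm.mul, neg_add, zpow_add₀ (p_ne (p := p))]
  exact mul_le_mul (hf _ (by omega)) (hg _ (by omega)) (padicNorm.nonneg _) (zpow_nonneg' _)

/-- product with an integral series on the left -/
theorem VN.imul {e : ℤ} {N : ℕ} {f g : ℚ⟦X⟧} (hf : VN p 0 N f) (hg : VN p e N g) :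
    VN p e N (f * g) := by
  have := hf.mul hg
  rwa [zero_add] at this

theorem VN.C {e : ℤ} {N : ℕ} {q : ℚ} (hq : padicNorm p q ≤ (p : ℚ) ^ (-e)) :
    VN p e N (PowerSeries.C q) := by
  intro m _
  rw [coeff_C]
  split_ifs
  · exact hq
  · simpa using zpow_nonneg' (-e)

theorem VN.sc {e : ℤ} {N : ℕ} {q : ℚ} {f : ℚ⟦X⟧} (hq : padicNorm p q ≤ 1) (hf : VN p e N f) :
    VN p e N (sc q f) := by
  unfold Vale.Agent.P030.T.sc
  exact VN.imul (VN.C (by simpa using hq)) hf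

theorem VN.one {N : ℕ} : VN p 0 N (1 : ℚ⟦X⟧) := by
  intro m _
  rw [coeff_one]
  split_ifs <;> simp

theorem VN.X {N : ℕ} : VN p 0 N (X : ℚ⟦X⟧) := by
  intro m _
  rw [coeff_X]
  split_ifs <;> simp

theorem VN.pow {N : ℕ} {f : ℚ⟦X⟧} (hf : VN p 0 N f) (n : ℕ) : VN p 0 N (f ^ n) := by
  induction n with
  | zero => simpa using VN.one
  | succ n ih =>
    rw [pow_succ]
    exact ih.imul hf

theorem VN.geo {N : ℕ} : VN p 0 N geo := by
  intro m _
  simp [Vale.Agent.P030.T.geo]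

theorem VN.geoa {N : ℕ} : VN p 0 N geoa := by
  intro m _
  simp only [Vale.Agent.P030.T.geoa, coeff_mk]
  rcases neg_one_pow_eq_or ℚ m with h | h <;> simp [h]

theorem VN.geo2 {N : ℕ} : VN p 0 N geo2 := by
  intro m _
  simp only [Vale.Agent.P030.T.geo2, coeff_mk]
  split_ifs <;> simp

theorem padicNorm_nat_le (n : ℕ) : padicNorm p (n : ℚ) ≤ 1 := padicNorm.of_nat n

theorem VN.th {e : ℤ} {N : ℕ} {f : ℚ⟦X⟧} (hf : VN p e N f) : VN p e N (th f) := by
  intro m hm
  simp only [Vale.Agent.P030.T.th, coeff_mk, padicNorm.mul]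
  calc padicNorm p (m : ℚ) * padicNorm p (coeff m f) ≤ 1 * padicNorm p (coeff m f) :=
        mul_le_mul_of_nonneg_right (padicNorm.of_nat m) (padicNorm.nonneg _)
    _ ≤ _ := by rw [one_mul]; exact hf m hm

theorem VN.dd {e : ℤ} {N : ℕ} {f : ℚ⟦X⟧} (hf : VN p e N f) : VN p e (N - 1) (dd f) := by
  intro m hm
  simp only [Vale.Agent.P030.T.dd, coeff_mk, padicNorm.mul]
  have h1 : padicNorm p ((m : ℚ) + 1) ≤ 1 := by exact_mod_cast padicNorm.of_nat (p := p) (m + 1)
  calc padicNorm p ((m : ℚ) + 1) * padicNorm p (coeff (m + 1) f)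
      ≤ 1 * padicNorm p (coeff (m + 1) f) :=
        mul_le_mul_of_nonneg_right h1 (padicNorm.nonneg _)
    _ ≤ _ := by rw [one_mul]; exact hf _ (by omega)

/-- inverses of integers below `p²` -/
theorem padicNorm_inv_nat {n : ℕ} (h0 : n ≠ 0) (h : n < p ^ 2) :
    padicNorm p ((n : ℚ)⁻¹) ≤ (p : ℚ) := by
  have hq : (n : ℚ) ≠ 0 := by exact_mod_cast h0
  rw [padicNorm.eq_zpow_of_nonzero (inv_ne_zero hq), padicValRat.inv, neg_neg,
    padicValRat.of_nat]
  have h1 : padicValNat p n < 2 := by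
    by_contra hc
    have h2 : p ^ 2 ∣ n := (padicValNat_dvd_iff_le h0).2 (by omega)
    exact absurd (Nat.le_of_dvd (Nat.pos_of_ne_zero h0) h2) (by omega)
  calc (p : ℚ) ^ ((padicValNat p n : ℕ) : ℤ) ≤ (p : ℚ) ^ (1 : ℤ) :=
        zpow_le_zpow_right₀ one_le_p (by exact_mod_cast Nat.lt_succ_iff.1 h1)
    _ = p := zpow_one _

/-- formal integration costs one power of `p` up to the index `p²` -/
theorem VN.of_dd {e : ℤ} {N : ℕ} {f : ℚ⟦X⟧} (hN : N < p ^ 2)
    (h0 : padicNorm p (coeff 0 f) ≤ (p : ℚ) ^ (-(e - 1))) (h : VN p e N (Vale.Agent.P030.T.dd f)) :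
    VN p (e - 1) (N + 1) f := by
  intro m hm
  rcases m with _ | m
  · exact h0
  · have h1 := h m (by omega)
    simp only [Vale.Agent.P030.T.dd, coeff_mk] at h1
    have hne : ((m : ℚ) + 1) ≠ 0 := by positivity
    have h2 : coeff (m + 1) f = (((m + 1 : ℕ) : ℚ))⁻¹ * (((m : ℚ) + 1) * coeff (m + 1) f) := by
      push_cast
      field_simp
    rw [h2, padicNorm.mul]
    have h3 := padicNorm_inv_nat (p := p) (n := m + 1) (by omega) (by omega)
    calc _ ≤ (p : ℚ) * (p : ℚ) ^ (-e) :=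
          mul_le_mul h3 h1 (padicNorm.nonneg _) (Nat.cast_nonneg _)
      _ = _ := by
          rw [← zpow_one_add₀ (p_ne (p := p))]
          congr 1
          ring

theorem VN.integ {e : ℤ} {N : ℕ} {f : ℚ⟦X⟧} (hN : N ≤ p ^ 2) (h : VN p e N f) :
    VN p (e - 1) N (integ f) := by
  intro m hm
  simp only [Vale.Agent.P030.T.integ, coeff_mk]
  split_ifs with h0
  · simpa using zpow_nonneg' _
  · rw [div_eq_inv_mul, padicNorm.mul]
    have h3 := padicNorm_inv_nat (p := p) (n := m) h0 (by omega)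
    calc _ ≤ (p : ℚ) * (p : ℚ) ^ (-e) :=
          mul_le_mul h3 (h _ (by omega)) (padicNorm.nonneg _) (Nat.cast_nonneg _)
      _ = _ := by
          rw [← zpow_one_add₀ (p_ne (p := p))]
          congr 1
          ring

theorem VN.lgm {N : ℕ} (hN : N ≤ p ^ 2) : VN p (-1) N lgm := by
  intro m hm
  simp only [Vale.Agent.P030.T.lgm, coeff_mk]
  split_ifs with h0
  · simpa using zpow_nonneg' 1
  · rw [one_div]
    simpa using padicNorm_inv_nat (p := p) (n := m) h0 (by omega)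

theorem VN.lgp {N : ℕ} (hN : N ≤ p ^ 2) : VN p (-1) N lgp := by
  intro m hm
  simp only [Vale.Agent.P030.T.lgp, coeff_mk]
  split_ifs with h0
  · simpa using zpow_nonneg' 1
  · rw [div_eq_mul_inv, padicNorm.mul]
    have h1 : padicNorm p ((-1 : ℚ) ^ (m + 1)) = 1 := by
      rcases neg_one_pow_eq_or ℚ (m + 1) with h | h <;> simp [h]
    rw [h1, one_mul]
    simpa using padicNorm_inv_nat (p := p) (n := m) h0 (by omega)

theorem VN.li2 {N : ℕ} (hN : N ≤ p ^ 2) : VN p (-2) N li2 := by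
  intro m hm
  simp only [Vale.Agent.P030.T.li2, coeff_mk]
  split_ifs with h0
  · simpa using zpow_nonneg' 2
  · have h := padicNorm_inv_nat (p := p) (n := m) h0 (by omega)
    rw [one_div, pow_two, mul_inv, padicNorm.mul]
    calc _ ≤ (p : ℚ) * p := mul_le_mul h h (padicNorm.nonneg _) (Nat.cast_nonneg _)
      _ = _ := by
        rw [neg_neg, show (2 : ℤ) = 1 + 1 by norm_num, zpow_add₀ (p_ne (p := p)), zpow_one]

end

end Vale.Agent.P030.H392
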