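import Mathlib
import Vale.Agent.P030.T.Defs
import Vale.Agent.P030.H392.VN

/-!
# P030, odd primes: the operator `𝓜`, the Wronskian identity and the local series
-/

set_option linter.unusedSectionVars false
set_option linter.unnecessarySimpa false

open PowerSeries

namespace Vale.Agent.P030.H392

open Vale.Agent.P030.T

/-! ### `dd` is a derivation -/

theorem dd_eq (f : ℚ⟦X⟧) : dd f = derivative ℚ f := by
  ext n
  rw [dd, coeff_mk, coeff_derivative, mul_comm]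

theorem coeff_dd (n : ℕ) (f : ℚ⟦X⟧) : coeff n (dd f) = ((n : ℚ) + 1) * coeff (n + 1) f := by
  rw [dd, coeff_mk]

theorem dd_mul (f g : ℚ⟦X⟧) : dd (f * g) = f * dd g + dd f * g := by
  rw [dd_eq, dd_eq, dd_eq, Derivation.leibniz, smul_eq_mul, smul_eq_mul, mul_comm g]

theorem dd_add (f g : ℚ⟦X⟧) : dd (f + g) = dd f + dd g := by
  rw [dd_eq, dd_eq, dd_eq, map_add]

theorem dd_sub (f g : ℚ⟦X⟧) : dd (f - g) = dd f - dd g := by
  rw [dd_eq, dd_eq, dd_eq, map_sub]

theorem dd_C (q : ℚ) : dd (C q) = 0 := by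
  rw [dd_eq]
  simp

theorem dd_one : dd (1 : ℚ⟦X⟧) = 0 := by
  have := dd_C 1
  rwa [map_one] at this

theorem dd_X : dd (X : ℚ⟦X⟧) = 1 := by
  rw [dd_eq]
  simp

theorem dd_zero : dd (0 : ℚ⟦X⟧) = 0 := by
  rw [dd_eq, map_zero]

theorem dd_sum {ι : Type*} (s : Finset ι) (f : ι → ℚ⟦X⟧) :
    dd (∑ i ∈ s, f i) = ∑ i ∈ s, dd (f i) := by
  rw [dd_eq, map_sum]
  exact Finset.sum_congr rfl fun i _ => (dd_eq _).symm

theorem th_eq (f : ℚ⟦X⟧) : th f = X * dd f := by
  ext n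
  rcases n with _ | n
  · simp [th]
  · rw [coeff_succ_X_mul, coeff_dd, th, coeff_mk]
    push_cast
    ring

/-- `𝓜 f = (X (1 - X²) f')' - X f` -/
noncomputable def MM (f : ℚ⟦X⟧) : ℚ⟦X⟧ := dd (X * (1 - X ^ 2) * dd f) - X * f

theorem MM_add (f g : ℚ⟦X⟧) : MM (f + g) = MM f + MM g := by
  simp only [MM, dd_add, mul_add]
  ring

theorem MM_C_mul (q : ℚ) (f : ℚ⟦X⟧) : MM (C q * f) = C q * MM f := by
  have h : X * (1 - X ^ 2) * dd (C q * f) = C q * (X * (1 - X ^ 2) * dd f) := by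
    rw [dd_mul, dd_C]
    ring
  simp only [MM]
  rw [h, dd_mul (C q), dd_C]
  ring

theorem MM_zero : MM 0 = 0 := by
  simp only [MM, dd_zero, mul_zero, sub_zero]

theorem MM_sum {ι : Type*} (s : Finset ι) (f : ι → ℚ⟦X⟧) :
    MM (∑ i ∈ s, f i) = ∑ i ∈ s, MM (f i) := by
  classical
  induction s using Finset.induction_on with
  | empty => simp [MM_zero]
  | insert a s ha ih => rw [Finset.sum_insert ha, Finset.sum_insert ha, MM_add, ih]

theorem MM_eq (f : ℚ⟦X⟧) : MM f = dd (th f) - dd (X ^ 2 * th f) - X * f := by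
  have h : X * (1 - X ^ 2) * dd f = th f - X ^ 2 * th f := by
    rw [th_eq]
    ring
  rw [MM, h, dd_sub]

theorem coeff_MM_zero (f : ℚ⟦X⟧) : coeff 0 (MM f) = coeff 1 f := by
  rw [MM_eq, map_sub, map_sub, coeff_dd, coeff_dd, coeff_zero_X_mul, th, coeff_mk]
  have : coeff (0 + 1) (X ^ 2 * mk fun n => (n : ℚ) * coeff n f) = 0 := by
    rw [coeff_X_pow_mul']
    simp
  rw [this]
  simp

theorem coeff_MM_succ (n : ℕ) (f : ℚ⟦X⟧) :
    coeff (n + 1) (MM f)
      = ((n : ℚ) + 2) ^ 2 * coeff (n + 2) f - ((n : ℚ) + 1) ^ 2 * coeff n f := by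
  rw [MM_eq, map_sub, map_sub, coeff_dd, coeff_dd, coeff_succ_X_mul,
    show n + 1 + 1 = n + 2 from rfl, coeff_X_pow_mul, th, coeff_mk, coeff_mk]
  push_cast
  ring

/-- the Wronskian identity -/
theorem wronskian (h f : ℚ⟦X⟧) :
    dd (X * (1 - X ^ 2) * (h * dd f - dd h * f)) = h * MM f - f * MM h := by
  have e1 : X * (1 - X ^ 2) * (h * dd f - dd h * f)
      = h * (X * (1 - X ^ 2) * dd f) - f * (X * (1 - X ^ 2) * dd h) := by ring
  rw [e1, dd_sub, dd_mul h, dd_mul f, MM, MM]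
  ring

/-! ### the coefficients of `K` -/

/-- the coefficients of `K` -/
noncomputable def hK (n : ℕ) : ℚ := coeff n serK

theorem hK_eq (n : ℕ) :
    hK n = if Even n then ((Nat.centralBinom (n / 2) : ℚ)) ^ 2 / 4 ^ n else 0 := by
  rw [hK, serK, coeff_mk]

theorem hK_zero : hK 0 = 1 := by
  rw [hK_eq]
  simp

theorem hK_odd {n : ℕ} (h : ¬ Even n) : hK n = 0 := by
  rw [hK_eq, if_neg h]

theorem hK_one : hK 1 = 0 := hK_odd (by decide)

theorem hK_rec (n : ℕ) : ((n : ℚ) + 2) ^ 2 * hK (n + 2) = ((n : ℚ) + 1) ^ 2 * hK n := by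
  by_cases h : Even n
  · obtain ⟨m, rfl⟩ := h
    have h1 : Even (m + m) := ⟨m, rfl⟩
    have h2 : Even (m + m + 2) := ⟨m + 1, by ring⟩
    rw [hK_eq, hK_eq, if_pos h1, if_pos h2]
    have h3 : (m + m + 2) / 2 = m + 1 := by omega
    have h4 : (m + m) / 2 = m := by omega
    rw [h3, h4]
    have h5 : ((m : ℚ) + 1) * (Nat.centralBinom (m + 1) : ℚ)
        = 2 * (2 * m + 1) * (Nat.centralBinom m : ℚ) := by
      exact_mod_cast Nat.succ_mul_centralBinom_succ m
    have h6 : ((m : ℚ) + 1) ^ 2 * (Nat.centralBinom (m + 1) : ℚ) ^ 2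
        = 4 * (2 * m + 1) ^ 2 * (Nat.centralBinom m : ℚ) ^ 2 := by
      have := congrArg (· ^ 2) h5
      simp only [mul_pow] at this
      rw [this]
      ring
    push_cast
    rw [pow_add (4 : ℚ) (m + m) 2]
    field_simp
    nlinarith [h6]
  · have h2 : ¬ Even (n + 2) := fun hh => h ((Nat.even_add.1 hh).2 even_two)
    rw [hK_odd h, hK_odd h2]
    ring

theorem MM_serK : MM serK = 0 := by
  ext n
  rcases n with _ | n
  · rw [coeff_MM_zero, map_zero]
    exact hK_one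
  · rw [coeff_MM_succ, map_zero]
    have := hK_rec n
    simp only [hK] at this
    rw [this]
    ring

theorem MM_serB : MM serB = C (-1 / 4) * geo := by
  ext n
  rw [coeff_C_mul, geo, coeff_mk]
  rcases n with _ | n
  · rw [coeff_MM_zero, serB, coeff_mk]
    simp [cB]
  · rw [coeff_MM_succ, serB, coeff_mk, coeff_mk, cB]
    have : ((n : ℚ) + 2) ≠ 0 := by positivity
    field_simp
    ring

theorem MM_serB2 : MM serB2 = C (-1 / 4) := by
  ext n
  rcases n with _ | n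
  · rw [coeff_MM_zero, serB2, coeff_mk]
    simp [cB2]
  · rw [coeff_MM_succ, serB2, coeff_mk, coeff_mk, cB2, coeff_C, if_neg (by omega)]
    have : ((n : ℚ) + 2) ≠ 0 := by positivity
    field_simp
    ring

theorem cMs_add_two {n : ℕ} (h : Even n) :
    cMs (n + 2) = cMs n + (2 / ((n : ℚ) + 1) - 2 / ((n : ℚ) + 2)) := by
  obtain ⟨m, rfl⟩ := h
  have h3 : (m + m + 2) / 2 = m + 1 := by omega
  have h4 : (m + m) / 2 = m := by omega
  rw [cMs, cMs, h3, h4, Finset.sum_range_succ]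
  push_cast
  rw [two_mul]

theorem MM_serM : MM serM = -(C 2 * ((1 - X ^ 2) * dd serK)) + C 2 * (X * serK) := by
  ext n
  have e1 : (1 - X ^ 2) * dd serK = dd serK - X ^ 2 * dd serK := by ring
  rw [e1, map_add, map_neg, coeff_C_mul, coeff_C_mul, map_sub]
  rcases n with _ | n
  · rw [coeff_MM_zero, coeff_dd, coeff_zero_X_mul, coeff_X_pow_mul', serM, coeff_mk]
    have h1 : coeff 1 serK = 0 := hK_one
    simp [h1]
  · rw [coeff_MM_succ, coeff_dd, coeff_succ_X_mul, serM, coeff_mk, coeff_mk]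
    have hrec := hK_rec n
    simp only [hK] at hrec
    have hX : coeff (n + 1) (X ^ 2 * dd serK) = (n : ℚ) * coeff n serK := by
      rcases n with _ | n
      · rw [coeff_X_pow_mul']
        simp
      · rw [show n + 1 + 1 = n + 2 from rfl, coeff_X_pow_mul, coeff_dd]
        push_cast
        ring
    rw [hX]
    by_cases h : Even n
    · rw [cMs_add_two h]
      have h1 : ((n : ℚ) + 1) ≠ 0 := by positivity
      have h2 : ((n : ℚ) + 2) ≠ 0 := by positivity
      have h3 : coeff n serK = ((n : ℚ) + 2) ^ 2 * coeff (n + 2) serK / ((n : ℚ) + 1) ^ 2 := by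
        rw [hrec]
        field_simp
      rw [h3]
      push_cast
      field_simp
      ring
    · have h2 : ¬ Even (n + 2) := fun hh => h ((Nat.even_add.1 hh).2 even_two)
      have h3 : coeff n serK = 0 := hK_odd h
      have h4 : coeff (n + 2) serK = 0 := hK_odd h2
      rw [h3, show n + 1 + 1 = n + 2 from rfl, h4]
      ring

/-! ### telescoping -/

theorem telescope (A : ℕ → ℚ⟦X⟧) (n : ℕ) :
    ∑ q ∈ Finset.range (n + 1),
        C (hK q) * (C ((q : ℚ) ^ 2) * A (q - 1) - C (((q : ℚ) + 1) ^ 2) * A (q + 1))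
      = -(C (((n : ℚ) + 1) ^ 2) * (C (hK n) * A (n + 1) + C (hK (n + 1)) * A n)) := by
  induction n with
  | zero =>
    simp [hK_zero, hK_one]
  | succ n ih =>
    rw [Finset.sum_range_succ, ih]
    have h : C ((((n : ℕ) : ℚ) + 2) ^ 2 * hK (n + 2)) = C (((n : ℚ) + 1) ^ 2 * hK n) := by
      rw [hK_rec]
    rw [map_mul, map_mul] at h
    rw [show n + 1 - 1 = n from rfl, show n + 1 + 1 = n + 2 from rfl]
    push_cast
    rw [show (n : ℚ) + 1 + 1 = (n : ℚ) + 2 by ring]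
    linear_combination (A (n + 1)) * h

/-- `Σ_{q<p} hK q A_q` -/
noncomputable def hh (p : ℕ) (A : ℕ → ℚ⟦X⟧) : ℚ⟦X⟧ := ∑ q ∈ Finset.range p, C (hK q) * A q

/-- `Σ_{q<p} q hK q A_q` -/
noncomputable def hht (p : ℕ) (A : ℕ → ℚ⟦X⟧) : ℚ⟦X⟧ :=
  ∑ q ∈ Finset.range p, C ((q : ℚ) * hK q) * A q

theorem MM_hh {p : ℕ} (hp : ¬ Even p) (ε : ℚ) (A : ℕ → ℚ⟦X⟧)
    (hA : ∀ q, MM (A q)
      = C ε * (C ((q : ℚ) ^ 2) * A (q - 1) - C (((q : ℚ) + 1) ^ 2) * A (q + 1))) :
    MM (hh p A) = C (-ε * (p : ℚ) ^ 2 * hK (p - 1)) * A p := by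
  obtain ⟨n, rfl⟩ : ∃ n, p = n + 1 := ⟨p - 1, by
    rcases p with _ | p
    · exact absurd (by decide) hp
    · simp⟩
  rw [hh, MM_sum]
  have h1 : ∀ q ∈ Finset.range (n + 1), MM (C (hK q) * A q)
      = C ε * (C (hK q) * (C ((q : ℚ) ^ 2) * A (q - 1) - C (((q : ℚ) + 1) ^ 2) * A (q + 1))) := by
    intro q _
    rw [MM_C_mul, hA q]
    ring
  rw [Finset.sum_congr rfl h1, ← Finset.mul_sum, telescope, hK_odd hp, map_zero, zero_mul,
    add_zero, show n + 1 - 1 = n from rfl]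
  push_cast
  simp only [map_mul, map_neg]
  ring

end Vale.Agent.P030.H392
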