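import Mathlib
import Vale.Agent.P030.T.Defs

/-!
# P030, odd primes, middle range: binary forms at the four cusps over `ZMod p`
-/

set_option linter.unusedSectionVars false
set_option linter.unnecessarySimpa false

open PowerSeries

namespace Vale.Agent.P030.H392

open Vale.Agent.P030.T

section
variable (p : ℕ) [hp : Fact p.Prime]

/-- the series `f (X ^ p)` -/
noncomputable def up (f : (ZMod p)⟦X⟧) : (ZMod p)⟦X⟧ :=
  mk fun n => if p ∣ n then coeff (n / p) f else 0

theorem up_eq_expand (f : (ZMod p)⟦X⟧) : up p f = expand p hp.out.ne_zero f := by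
  ext n
  rw [up, coeff_mk, coeff_expand]

theorem up_eq_pow (f : (ZMod p)⟦X⟧) : up p f = f ^ p := by
  rw [up_eq_expand]
  have h := MvPowerSeries.map_frobenius_expand (σ := Unit) (R := ZMod p) p hp.out.ne_zero
    (f := f)
  rw [ZMod.frobenius_zmod, MvPowerSeries.map_id] at h
  exact h

theorem up_mul (f g : (ZMod p)⟦X⟧) : up p (f * g) = up p f * up p g := by
  rw [up_eq_pow, up_eq_pow, up_eq_pow, mul_pow]

theorem coeff_up (n : ℕ) (f : (ZMod p)⟦X⟧) :
    coeff n (up p f) = if p ∣ n then coeff (n / p) f else 0 := by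
  rw [up, coeff_mk]

/-- coefficients of a product with a series in `X ^ p` -/
theorem coeff_mul_up (f g : (ZMod p)⟦X⟧) (k : ℕ) :
    coeff k (f * up p g)
      = ∑ m ∈ Finset.range (k / p + 1), coeff (k - p * m) f * coeff m g := by
  have hpos := hp.out.pos
  rw [mul_comm f, coeff_mul, Finset.Nat.sum_antidiagonal_eq_sum_range_succ_mk]
  simp only [coeff_up]
  have h1 : ∑ m ∈ Finset.range (k / p + 1), coeff (k - p * m) f * coeff m g
      = ∑ i ∈ (Finset.range (k / p + 1)).image (fun m => p * m),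
        (if p ∣ i then coeff (i / p) g else 0) * coeff (k - i) f := by
    rw [Finset.sum_image (fun a _ b _ h => Nat.eq_of_mul_eq_mul_left hpos h)]
    refine Finset.sum_congr rfl fun m _ => ?_
    rw [if_pos (dvd_mul_right p m), Nat.mul_div_cancel_left m hpos, mul_comm]
  rw [h1]
  symm
  refine Finset.sum_subset ?_ ?_
  · intro i hi
    obtain ⟨m, hm, rfl⟩ := Finset.mem_image.1 hi
    rw [Finset.mem_range] at hm ⊢
    have h1 : p * m ≤ p * (k / p) := Nat.mul_le_mul_left p (by omega)
    have h2 : p * (k / p) ≤ k := Nat.mul_div_le k p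
    omega
  · intro i hi hni
    rw [if_neg, zero_mul]
    rintro ⟨m, rfl⟩
    apply hni
    rw [Finset.mem_image]
    refine ⟨m, ?_, rfl⟩
    rw [Finset.mem_range] at hi ⊢
    have h3 : m ≤ k / p := (Nat.le_div_iff_mul_le hpos).2 (by rw [mul_comm]; omega)
    omega

/-- `1 / (1 - X)` -/
noncomputable def gF : (ZMod p)⟦X⟧ := mk fun _ => 1

theorem gF_spec : (1 - X) * gF p = 1 := by
  ext n
  rw [sub_mul, one_mul, map_sub, gF, coeff_mk]
  rcases n with _ | n
  · simp
  · rw [coeff_succ_X_mul, coeff_mk, coeff_one, if_neg (by omega)]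
    ring

/-- the series of `A` at the cusps -/
noncomputable def cA : Fin 4 → (ZMod p)⟦X⟧ :=
  ![X * gF p, -(C (1 / 2) * (1 + X)), -gF p, -(C (1 / 2) * (1 + X))]

/-- the series of `B` at the cusps -/
noncomputable def cB : Fin 4 → (ZMod p)⟦X⟧ :=
  ![gF p, C (1 / 2) * (1 - X), -(X * gF p), -(C (1 / 2) * (1 - X))]

/-- the value at the cusp `c` of the form of degree `d` with the coefficients of `P` -/
noncomputable def ev (c : Fin 4) (d : ℕ) : Polynomial (ZMod p) →ₗ[ZMod p] (ZMod p)⟦X⟧ where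
  toFun P := ∑ i ∈ Finset.range (d + 1), P.coeff i • (cA p c ^ i * cB p c ^ (d - i))
  map_add' P Q := by
    rw [← Finset.sum_add_distrib]
    exact Finset.sum_congr rfl fun i _ => by rw [Polynomial.coeff_add, add_smul]
  map_smul' q P := by
    rw [RingHom.id_apply, Finset.smul_sum]
    exact Finset.sum_congr rfl fun i _ => by
      rw [Polynomial.coeff_smul, smul_eq_mul, mul_smul]

theorem ev_apply (c : Fin 4) (d : ℕ) (P : Polynomial (ZMod p)) :
    ev p c d P = ∑ i ∈ Finset.range (d + 1), P.coeff i • (cA p c ^ i * cB p c ^ (d - i)) := rfl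

theorem ev_X_pow (c : Fin 4) {d i : ℕ} (h : i ≤ d) :
    ev p c d (Polynomial.X ^ i) = cA p c ^ i * cB p c ^ (d - i) := by
  rw [ev_apply, Finset.sum_eq_single i]
  · rw [Polynomial.coeff_X_pow_self, one_smul]
  · intro j _ hj
    rw [Polynomial.coeff_X_pow, if_neg hj, zero_smul]
  · intro hi
    exact absurd (Finset.mem_range.2 (by omega)) hi

theorem ev_mul (c : Fin 4) {d e : ℕ} {P Q : Polynomial (ZMod p)} (hP : P.natDegree ≤ d)
    (hQ : Q.natDegree ≤ e) : ev p c (d + e) (P * Q) = ev p c d P * ev p c e Q := by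
  have h1 : P = ∑ i ∈ Finset.range (d + 1), P.coeff i • Polynomial.X ^ i := by
    conv_lhs => rw [P.as_sum_range' (d + 1) (by omega)]
    exact Finset.sum_congr rfl fun i _ => by rw [Polynomial.smul_X_eq_monomial]
  have h2 : Q = ∑ i ∈ Finset.range (e + 1), Q.coeff i • Polynomial.X ^ i := by
    conv_lhs => rw [Q.as_sum_range' (e + 1) (by omega)]
    exact Finset.sum_congr rfl fun i _ => by rw [Polynomial.smul_X_eq_monomial]
  conv_lhs => rw [h1, h2]
  rw [Finset.sum_mul, map_sum, ev_apply, ev_apply, Finset.sum_mul]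
  refine Finset.sum_congr rfl fun i hi => ?_
  rw [Finset.mul_sum, map_sum, Finset.mul_sum]
  refine Finset.sum_congr rfl fun j hj => ?_
  rw [Finset.mem_range] at hi hj
  rw [smul_mul_smul_comm, map_smul, ← pow_add, ev_X_pow p c (by omega : i + j ≤ d + e),
    smul_mul_smul_comm, pow_add, show d + e - (i + j) = (d - i) + (e - j) by omega, pow_add]
  congr 1
  ring

/-- raising the degree by `p` -/
theorem ev_add_p (c : Fin 4) {d : ℕ} {P : Polynomial (ZMod p)} (hP : P.natDegree ≤ d) :
    ev p c (d + p) P = ev p c d P * up p (cB p c) := by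
  have h := ev_mul p c (e := p) (Q := 1) hP (by simp)
  rw [mul_one] at h
  rw [h]
  have h2 := ev_X_pow p c (d := p) (i := 0) (by omega)
  rw [pow_zero, pow_zero, one_mul, Nat.sub_zero] at h2
  rw [h2, up_eq_pow]

theorem ev_X_p_mul (c : Fin 4) {d : ℕ} {P : Polynomial (ZMod p)} (hP : P.natDegree ≤ d) :
    ev p c (d + p) (Polynomial.X ^ p * P) = ev p c d P * up p (cA p c) := by
  have h := ev_mul p c (e := p) (Q := Polynomial.X ^ p) hP (by simp)
  rw [mul_comm P] at h
  rw [h]
  have h2 := ev_X_pow p c (d := p) (i := p) le_rfl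
  rw [Nat.sub_self, pow_zero, mul_one] at h2
  rw [h2, up_eq_pow]

/-- `Y = A + B` at the cusps -/
noncomputable def cY (c : Fin 4) : (ZMod p)⟦X⟧ := cA p c + cB p c

theorem ev_one_add_X (c : Fin 4) : ev p c 1 (1 + Polynomial.X) = cY p c := by
  have h0 := ev_X_pow p c (d := 1) (i := 0) (by omega)
  have h1 := ev_X_pow p c (d := 1) (i := 1) le_rfl
  rw [pow_zero, pow_zero, one_mul, Nat.sub_zero, pow_one] at h0
  rw [pow_one, Nat.sub_self, pow_zero, mul_one, pow_one] at h1
  rw [map_add, h0, h1, cY, add_comm]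

theorem ev_one_sub_X (c : Fin 4) : ev p c 1 (1 - Polynomial.X) = cB p c - cA p c := by
  have h0 := ev_X_pow p c (d := 1) (i := 0) (by omega)
  have h1 := ev_X_pow p c (d := 1) (i := 1) le_rfl
  rw [pow_zero, pow_zero, one_mul, Nat.sub_zero, pow_one] at h0
  rw [pow_one, Nat.sub_self, pow_zero, mul_one, pow_one] at h1
  rw [map_sub, h0, h1]

theorem natDeg_Y : (1 + Polynomial.X : Polynomial (ZMod p)).natDegree ≤ 1 :=
  (Polynomial.natDegree_add_le _ _).trans (by simp)

theorem natDeg_Y_pow (y : ℕ) : ((1 + Polynomial.X : Polynomial (ZMod p)) ^ y).natDegree ≤ y :=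
  (Polynomial.natDegree_pow_le).trans (by nlinarith [natDeg_Y p])

theorem ev_Y_pow (c : Fin 4) (y : ℕ) : ev p c y ((1 + Polynomial.X) ^ y) = cY p c ^ y := by
  induction y with
  | zero =>
    have h0 := ev_X_pow p c (d := 0) (i := 0) le_rfl
    simpa using h0
  | succ y ih =>
    rw [pow_succ, ev_mul p c (d := y) (e := 1) (natDeg_Y_pow p y) (natDeg_Y p), ih, ev_one_add_X,
      pow_succ]

end

end Vale.Agent.P030.H392
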