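import Mathlib
import Vale.Agent.P030.T.Defs
import Vale.Agent.P030.H392.VN
import Vale.Agent.P030.H392.Wr

/-!
# P030, odd primes: `p`-adic bounds for the local series, and for all entries
-/

set_option linter.unusedSectionVars false
set_option linter.unnecessarySimpa false

open PowerSeries

namespace Vale.Agent.P030.H392

open Vale.Agent.P030.T

section
variable {p : ℕ} [hp : Fact p.Prime]

theorem norm_unit {n : ℕ} (h : ¬ p ∣ n) : padicNorm p (n : ℚ) = 1 :=
  (padicNorm.nat_eq_one_iff n).2 h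

theorem norm_two (h2 : p ≠ 2) : padicNorm p (2 : ℚ) = 1 := by
  have : ¬ p ∣ 2 := fun h => h2 ((Nat.prime_dvd_prime_iff_eq hp.out Nat.prime_two).1 h)
  exact_mod_cast norm_unit this

theorem norm_four (h2 : p ≠ 2) : padicNorm p (4 : ℚ) = 1 := by
  rw [show (4 : ℚ) = 2 * 2 by norm_num, padicNorm.mul, norm_two h2, one_mul]

theorem norm_three (h3 : p ≠ 3) : padicNorm p (3 : ℚ) = 1 := by
  have : ¬ p ∣ 3 := fun h => h3 ((Nat.prime_dvd_prime_iff_eq hp.out Nat.prime_three).1 h)
  exact_mod_cast norm_unit this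

theorem norm_half (h2 : p ≠ 2) : padicNorm p (1 / 2 : ℚ) = 1 := by
  rw [padicNorm.div, padicNorm.one, norm_two h2, div_one]

theorem norm_quarter (h2 : p ≠ 2) : padicNorm p (1 / 4 : ℚ) = 1 := by
  rw [padicNorm.div, padicNorm.one, norm_four h2, div_one]

theorem norm_mquarter (h2 : p ≠ 2) : padicNorm p (-1 / 4 : ℚ) = 1 := by
  rw [padicNorm.div, padicNorm.neg, padicNorm.one, norm_four h2, div_one]

theorem norm_eighth (h2 : p ≠ 2) : padicNorm p (1 / 8 : ℚ) = 1 := by
  rw [show (1 / 8 : ℚ) = 1 / 2 * (1 / 4) by norm_num, padicNorm.mul, norm_half h2,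
    norm_quarter h2, one_mul]

theorem norm_pow (q : ℚ) (n : ℕ) : padicNorm p (q ^ n) = padicNorm p q ^ n := by
  induction n with
  | zero => simp
  | succ n ih => rw [pow_succ, pow_succ, padicNorm.mul, ih]

theorem norm_hK (h2 : p ≠ 2) (n : ℕ) : padicNorm p (hK n) ≤ 1 := by
  rw [hK_eq]
  split_ifs
  · rw [padicNorm.div, norm_pow, norm_pow, norm_four h2, one_pow, div_one]
    exact pow_le_one₀ (padicNorm.nonneg _) (padicNorm.of_nat _)
  · simp

theorem VN.serK {N : ℕ} (h2 : p ≠ 2) : VN p 0 N serK := by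
  intro m _
  rw [neg_zero, zpow_zero]
  exact norm_hK h2 m

theorem seq_bound (h2 : p ≠ 2) {c : ℕ → ℚ} {δ : ℚ} (hδ : padicNorm p δ ≤ 1)
    (hc0 : padicNorm p (c 0) ≤ 1) (hc1 : padicNorm p (c 1) ≤ 1)
    (hc : ∀ n : ℕ, c (n + 2) = (((n : ℚ) + 1) ^ 2 * c n + δ) / ((n : ℚ) + 2) ^ 2) :
    ∀ m : ℕ, m < p ^ 2 →
      ((m % p) % 2 = 1 → padicNorm p (c m) ≤ 1) ∧ padicNorm p (c m) ≤ (p : ℚ) ^ 2 := by
  have hodd : p % 2 = 1 := by
    rcases hp.out.eq_two_or_odd with h | h
    · exact absurd h h2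
    · exact h
  have hp2 := hp.out.two_le
  have hp1 : (1 : ℚ) ≤ (p : ℚ) ^ 2 := one_le_pow₀ one_le_p
  intro m
  induction m using Nat.strong_induction_on with
  | _ m ih =>
    intro hm
    rcases m with _ | _ | n
    · exact ⟨fun _ => hc0, hc0.trans hp1⟩
    · exact ⟨fun _ => hc1, hc1.trans hp1⟩
    · obtain ⟨ih1, ih2⟩ := ih n (by omega) (by omega)
      have e1 : ((n : ℚ) + 1) = ((n + 1 : ℕ) : ℚ) := by push_cast; ring
      have e2 : ((n : ℚ) + 2) = ((n + 2 : ℕ) : ℚ) := by push_cast; ring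
      have ha : padicNorm p ((n + 1 : ℕ) : ℚ) ≤ 1 := padicNorm.of_nat _
      have ha2 : padicNorm p (((n + 1 : ℕ) : ℚ) ^ 2) ≤ 1 := by
        rw [norm_pow]
        exact pow_le_one₀ (padicNorm.nonneg _) ha
      have hnum : ∀ B : ℚ, 1 ≤ B → padicNorm p (((n + 1 : ℕ) : ℚ) ^ 2 * c n) ≤ B →
          padicNorm p (((n + 1 : ℕ) : ℚ) ^ 2 * c n + δ) ≤ B := fun B hB h =>
        padicNorm.nonarchimedean.trans (max_le h (hδ.trans hB))
      have hmul : ∀ B : ℚ, padicNorm p (c n) ≤ B →
          padicNorm p (((n + 1 : ℕ) : ℚ) ^ 2 * c n) ≤ B := by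
        intro B hB
        rw [padicNorm.mul]
        calc _ ≤ 1 * padicNorm p (c n) :=
              mul_le_mul_of_nonneg_right ha2 (padicNorm.nonneg _)
          _ ≤ B := by rwa [one_mul]
      rw [hc n, e1, e2]
      by_cases hd : p ∣ n + 2
      · have hmod : n % p = p - 2 := by
          obtain ⟨t, ht⟩ := hd
          rcases t with _ | s
          · omega
          · rw [Nat.mul_succ] at ht
            have hn : n = p * s + (p - 2) := by omega
            rw [hn, Nat.mul_add_mod, Nat.mod_eq_of_lt (by omega)]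
        have hmod2 : (n + 2) % p = 0 := Nat.mod_eq_zero_of_dvd hd
        have h1 : padicNorm p (c n) ≤ 1 := ih1 (by omega)
        refine ⟨fun h => ?_, ?_⟩
        · exfalso
          have h' : ((n + 2) % p) % 2 = 1 := h
          omega
        · rw [div_eq_mul_inv, padicNorm.mul, ← inv_pow, norm_pow _ 2]
          have h4 := padicNorm_inv_nat (p := p) (n := n + 2) (by omega) (by omega)
          have h5 := hnum 1 le_rfl (hmul 1 h1)
          calc _ ≤ 1 * (p : ℚ) ^ 2 :=
                mul_le_mul h5 (pow_le_pow_left₀ (padicNorm.nonneg _) h4 2)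
                  (pow_nonneg (padicNorm.nonneg _) _) zero_le_one
            _ = _ := one_mul _
      · have hden : padicNorm p (((n + 2 : ℕ) : ℚ) ^ 2) = 1 := by
          rw [norm_pow, norm_unit hd, one_pow]
        rw [padicNorm.div, hden, div_one]
        refine ⟨fun h => ?_, hnum _ hp1 (hmul _ ih2)⟩
        have h' : ((n + 2) % p) % 2 = 1 := h
        by_cases hr : (n + 2) % p = 1
        · have hd1 : p ∣ n + 1 := by
            have h6 := Nat.div_add_mod (n + 2) p
            rw [hr] at h6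
            exact ⟨(n + 2) / p, by omega⟩
          refine hnum 1 le_rfl ?_
          rw [padicNorm.mul, norm_pow]
          have h7 : padicNorm p ((n + 1 : ℕ) : ℚ) ≤ (p : ℚ)⁻¹ := by
            have := (padicNorm.dvd_iff_norm_le (p := p) (n := 1) (z := ((n + 1 : ℕ) : ℤ))).1
              (by rw [pow_one]; exact_mod_cast hd1)
            simpa using this
          calc _ ≤ ((p : ℚ)⁻¹) ^ 2 * (p : ℚ) ^ 2 :=
                mul_le_mul (pow_le_pow_left₀ (padicNorm.nonneg _) h7 2) ih2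
                  (padicNorm.nonneg _) (by positivity)
            _ = 1 := by
                rw [inv_pow]
                exact inv_mul_cancel₀ (pow_ne_zero _ p_ne)
        · have hmod : n % p = (n + 2) % p - 2 := by
            have h6 := Nat.div_add_mod (n + 2) p
            have h8 : (n + 2) % p < p := Nat.mod_lt _ hp.out.pos
            have h9 : (n + 2) % p ≠ 0 := fun h => hd (Nat.dvd_of_mod_eq_zero h)
            have hn : n = p * ((n + 2) / p) + ((n + 2) % p - 2) := by omega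
            calc n % p = (p * ((n + 2) / p) + ((n + 2) % p - 2)) % p := by rw [← hn]
              _ = _ := by rw [Nat.mul_add_mod, Nat.mod_eq_of_lt (by omega)]
          have h9 : (n + 2) % p ≠ 0 := fun h => hd (Nat.dvd_of_mod_eq_zero h)
          exact hnum 1 le_rfl (hmul 1 (ih1 (by omega)))

theorem VN.serB {N : ℕ} (h2 : p ≠ 2) (hN : N ≤ p ^ 2) : VN p (-2) N serB := by
  intro m hm
  rw [Vale.Agent.P030.T.serB, coeff_mk, neg_neg]
  have := (seq_bound (p := p) h2 (c := cB) (δ := -1 / 4) (norm_mquarter h2).le (by simp [cB])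
    (by rw [cB]; exact (norm_mquarter h2).le) (fun n => by rw [cB]; ring) m (by omega)).2
  exact_mod_cast this

theorem VN.serB2 {N : ℕ} (h2 : p ≠ 2) (hN : N ≤ p ^ 2) : VN p (-2) N serB2 := by
  intro m hm
  rw [Vale.Agent.P030.T.serB2, coeff_mk, neg_neg]
  have := (seq_bound (p := p) h2 (c := cB2) (δ := 0) (by simp) (by simp [cB2])
    (by rw [cB2]; exact (norm_mquarter h2).le) (fun n => by rw [cB2]; ring) m (by omega)).2
  exact_mod_cast this

theorem VN.serM {N : ℕ} (h2 : p ≠ 2) (hN : N ≤ p ^ 2) : VN p (-1) N serM := by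
  intro m hm
  rw [Vale.Agent.P030.T.serM, coeff_mk, neg_neg, zpow_one, padicNorm.mul]
  have hc : padicNorm p (cMs m) ≤ (p : ℚ) := by
    rw [cMs]
    refine padicNorm.sum_le' (fun j hj => ?_) (Nat.cast_nonneg _)
    rw [Finset.mem_range] at hj
    refine padicNorm.sub.trans (max_le ?_ ?_)
    · rw [div_eq_mul_inv, padicNorm.mul, norm_two h2, one_mul]
      have := padicNorm_inv_nat (p := p) (n := 2 * j + 1) (by omega) (by omega)
      push_cast at this
      exact this
    · rw [div_eq_mul_inv, padicNorm.mul, norm_two h2, one_mul]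
      have := padicNorm_inv_nat (p := p) (n := 2 * j + 2) (by omega) (by omega)
      push_cast at this
      exact this
  calc _ ≤ 1 * (p : ℚ) := mul_le_mul (norm_hK h2 m) hc (padicNorm.nonneg _) zero_le_one
    _ = _ := one_mul _

/-- the weights of the groups -/
def wg : Gp → ℤ
  | .z1 => 0 | .zl => 1 | .z8 => 2 | .zab => 2
  | .w1 => 0 | .wl => 1 | .wy => 2 | .w8 => 2 | .wab => 2 | .wf7 => 2
  | .v2 => 2 | .vl => 2 | .v8 => 2 | .vb => 1
  | .x2 => 2 | .xl => 2 | .x1 => 1

/-- the weights of the eight functions -/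
def wr : Fin 8 → ℤ := ![0, 1, 1, 2, 2, 2, 2, 2]

theorem VN.one_sub_X {N : ℕ} : VN p 0 N (1 - PowerSeries.X : ℚ⟦X⟧) := VN.one.sub VN.X
theorem VN.one_add_X {N : ℕ} : VN p 0 N (1 + PowerSeries.X : ℚ⟦X⟧) := VN.one.add VN.X

theorem VN.tw {e : ℤ} {f : ℚ⟦X⟧} (h2 : p ≠ 2) (hf : VN p e (p ^ 2) f) :
    VN p e (p ^ 2 - 1) (tw f) := by
  unfold Vale.Agent.P030.T.tw
  exact VN.sc (norm_half h2).le (VN.one_add_X.imul (VN.one_sub_X.imul hf).dd)

theorem VN.mon {N : ℕ} (h2 : p ≠ 2) (D : ℕ) (c : Fin 4) (i : ℕ) : VN p 0 N (mon D c i) := by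
  have hs : ∀ n : ℕ, padicNorm p ((-1 : ℚ) ^ n) = 1 := by
    intro n
    rcases neg_one_pow_eq_or ℚ n with h | h <;> simp [h]
  have h22 : ∀ n : ℕ, padicNorm p ((2 : ℚ) ^ n) = 1 := by
    intro n
    rw [norm_pow, norm_two h2, one_pow]
  have h23 : ∀ n : ℕ, padicNorm p ((-2 : ℚ) ^ n) = 1 := by
    intro n
    rw [norm_pow, padicNorm.neg, norm_two h2, one_pow]
  have key : ∀ a b : ℕ, VN p 0 N ((1 + PowerSeries.X : ℚ⟦X⟧) ^ a * (1 - PowerSeries.X) ^ b) :=
    fun a b => (VN.one_add_X.pow a).imul (VN.one_sub_X.pow b)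
  fin_cases c
  · exact (VN.X.pow i).imul (VN.geo.pow (D - 1))
  · exact VN.sc (by rw [padicNorm.div, hs, h22, div_one]) (key _ _)
  · exact VN.sc (hs _).le ((VN.X.pow _).imul (VN.geo.pow (D - 1)))
  · exact VN.sc (by rw [padicNorm.div, padicNorm.one, h23, div_one]) (key _ _)

end

end Vale.Agent.P030.H392
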