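import Mathlib
import Vale.Agent.P030.T.Defs
import Vale.Agent.P030.H392.VN
import Vale.Agent.P030.H392.Wr
import Vale.Agent.P030.H392.Ser

/-!
# P030, odd primes: integrality of the entries (O2) and of the Frobenius rows (O1)
-/

set_option linter.unusedSectionVars false
set_option linter.unnecessarySimpa false

open PowerSeries

namespace Vale.Agent.P030.H392

open Vale.Agent.P030.T

section
variable {p : ℕ} [hp : Fact p.Prime]

/-! ### O2 -/

theorem tup0_VN (h2 : p ≠ 2) (h3 : p ≠ 3) (g : Gp) (j : Fin 8) :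
    VN p (wg g - wr j) (p ^ 2 - 1) (tup0 g j) := by
  have hN : p ^ 2 - 1 ≤ p ^ 2 := Nat.sub_le _ _
  have one' : VN p 0 (p ^ 2 - 1) (1 : ℚ⟦X⟧) := VN.one
  have lgm' : VN p (-1) (p ^ 2 - 1) lgm := VN.lgm hN
  have lgp' : VN p (-1) (p ^ 2 - 1) lgp := VN.lgp hN
  have li2' : VN p (-2) (p ^ 2 - 1) li2 := VN.li2 hN
  have int1 : VN p (-2) (p ^ 2 - 1) (integ (geoa * lgm)) := (VN.geoa.imul lgm').integ hN
  have int2 : VN p (-2) (p ^ 2 - 1) (integ (geo2 * lgm)) := (VN.geo2.imul lgm').integ hN
  have sq' : VN p (-2) (p ^ 2 - 1) (lgm ^ 2) := by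
    rw [pow_two T.lgm]
    exact lgm'.mul lgm'
  have hsq : VN p (-2) (p ^ 2 - 1) (T.sc (1 / 2) (lgm ^ 2)) := VN.sc (norm_half h2).le sq'
  have hlg : VN p (-1) (p ^ 2 - 1) (T.sc (1 / 2) lgm) := VN.sc (norm_half h2).le lgm'
  have hpm : VN p (-1) (p ^ 2 - 1) (lgp + lgm) := lgp'.add lgm'
  have K' : VN p 0 (p ^ 2 - 1) serK := VN.serK h2
  have tK : VN p 0 (p ^ 2 - 1) (T.tw serK) := VN.tw h2 (VN.serK h2)
  have B' : VN p (-2) (p ^ 2 - 1) serB := VN.serB h2 hN
  have B2' : VN p (-2) (p ^ 2 - 1) serB2 := VN.serB2 h2 hN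
  have tB2 : VN p (-2) (p ^ 2 - 1) (T.tw serB2) := VN.tw h2 (VN.serB2 h2 le_rfl)
  have M' : VN p (-1) (p ^ 2 - 1) serM := VN.serM h2 hN
  have tM : VN p (-1) (p ^ 2 - 1) (T.tw serM) := VN.tw h2 (VN.serM h2 le_rfl)
  have hX : VN p 0 (p ^ 2 - 1) (X : ℚ⟦X⟧) := VN.X
  have hX2 : VN p 0 (p ^ 2 - 1) (1 - X ^ 2 : ℚ⟦X⟧) := VN.one.sub (VN.X.pow 2)
  have h43 : VN p 0 (p ^ 2 - 1) (C (4 / 3 : ℚ)) :=
    VN.C (by rw [padicNorm.div, norm_four h2, norm_three h3]; simp)
  have h12 : VN p 0 (p ^ 2 - 1) (C (1 / 2 : ℚ)) := VN.C (by rw [norm_half h2]; simp)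
  cases g
  · -- z1
    fin_cases j
    · exact one'.mono (by decide) le_rfl
    · exact VN.zero
    · exact lgm'.mono (by decide) le_rfl
    · exact li2'.mono (by decide) le_rfl
    · exact int1.mono (by decide) le_rfl
    · exact hsq.mono (by decide) le_rfl
    · exact (VN.one_sub_X.imul B').mono (by decide) le_rfl
    · exact (VN.one_sub_X.imul B'.th).mono (by decide) le_rfl
  · -- zl
    fin_cases j
    · exact VN.zero
    · exact one'.mono (by decide) le_rfl
    · exact VN.zero
    · exact VN.zero
    · exact (hlg.add lgp').mono (by decide) le_rfl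
    · exact hlg.mono (by decide) le_rfl
    · exact VN.zero
    · exact VN.zero
  · -- z8
    fin_cases j
    · exact VN.zero
    · exact VN.zero
    · exact VN.zero
    · exact VN.zero
    · exact VN.zero
    · exact VN.zero
    · exact (VN.one_sub_X.imul K').mono (by decide) le_rfl
    · exact (VN.one_sub_X.imul K'.th).mono (by decide) le_rfl
  · -- zab
    fin_cases j
    · exact VN.zero
    · exact VN.zero
    · exact VN.zero
    · exact one'.mono (by decide) le_rfl
    · exact VN.zero
    · exact VN.zero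
    · exact VN.zero
    · exact VN.zero
  · -- w1
    fin_cases j
    · exact one'.mono (by decide) le_rfl
    · exact VN.zero
    · exact lgm'.neg.mono (by decide) le_rfl
    · exact (VN.sc (norm_two h2).le int2).neg.mono (by decide) le_rfl
    · exact (li2'.neg.sub hsq).mono (by decide) le_rfl
    · exact hsq.mono (by decide) le_rfl
    · exact B2'.mono (by decide) le_rfl
    · exact tB2.mono (by decide) le_rfl
  · -- wl
    fin_cases j
    · exact VN.zero
    · exact one'.mono (by decide) le_rfl
    · exact one'.neg.mono (by decide) le_rfl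
    · exact hpm.neg.mono (by decide) le_rfl
    · exact (VN.sc (norm_half h2).le lgm' |>.neg).mono (by decide) le_rfl
    · exact hlg.mono (by decide) le_rfl
    · exact VN.zero
    · exact VN.zero
  · -- wy
    fin_cases j
    · exact VN.zero
    · exact VN.zero
    · exact VN.zero
    · exact h43.neg.mono (by decide) le_rfl
    · exact h43.neg.mono (by decide) le_rfl
    · exact VN.zero
    · exact K'.neg.mono (by decide) le_rfl
    · exact tK.neg.mono (by decide) le_rfl
  · -- w8
    fin_cases j
    · exact VN.zero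
    · exact VN.zero
    · exact VN.zero
    · exact VN.zero
    · exact VN.zero
    · exact VN.zero
    · exact K'.mono (by decide) le_rfl
    · exact tK.mono (by decide) le_rfl
  · -- wab
    fin_cases j
    · exact VN.zero
    · exact VN.zero
    · exact VN.zero
    · exact one'.mono (by decide) le_rfl
    · exact VN.zero
    · exact VN.zero
    · exact VN.zero
    · exact VN.zero
  · -- wf7
    fin_cases j
    · exact VN.zero
    · exact VN.zero
    · exact VN.zero
    · exact VN.zero
    · exact VN.zero
    · exact one'.mono (by decide) le_rfl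
    · exact VN.zero
    · exact VN.zero
  · -- v2
    fin_cases j
    · exact VN.zero
    · exact VN.zero
    · exact VN.zero
    · exact one'.neg.mono (by decide) le_rfl
    · exact one'.neg.mono (by decide) le_rfl
    · exact one'.mono (by decide) le_rfl
    · exact VN.zero
    · exact VN.zero
  · -- vl
    fin_cases j
    · exact VN.zero
    · exact VN.zero
    · exact VN.zero
    · exact VN.zero
    · exact one'.neg.mono (by decide) le_rfl
    · exact one'.mono (by decide) le_rfl
    · exact VN.zero
    · exact VN.zero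
  · -- v8
    fin_cases j
    · exact VN.zero
    · exact VN.zero
    · exact VN.zero
    · exact VN.zero
    · exact VN.zero
    · exact VN.zero
    · exact (VN.one_sub_X.imul K').neg.mono (by decide) le_rfl
    · exact (VN.one_sub_X.imul (VN.X.imul (VN.serK (N := p ^ 2) h2)).dd).mono (by decide) le_rfl
  · -- vb
    fin_cases j
    · exact VN.zero
    · exact VN.zero
    · exact one'.mono (by decide) le_rfl
    · exact VN.zero
    · exact lgp'.mono (by decide) le_rfl
    · exact lgm'.mono (by decide) le_rfl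
    · exact VN.zero
    · exact VN.zero
  · -- x2
    fin_cases j
    · exact VN.zero
    · exact VN.zero
    · exact VN.zero
    · exact VN.zero
    · exact VN.zero
    · exact h12.mono (by decide) le_rfl
    · exact (VN.sc (norm_eighth h2).le (hX.imul K')).mono (by decide) le_rfl
    · exact (VN.sc (norm_eighth h2).le (hX.imul tK)).mono (by decide) le_rfl
  · -- xl
    fin_cases j
    · exact VN.zero
    · exact VN.zero
    · exact VN.zero
    · exact VN.zero
    · exact one'.neg.mono (by decide) le_rfl
    · exact one'.mono (by decide) le_rfl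
    · exact (hX.imul K').neg.mono (by decide) le_rfl
    · exact (hX.imul tK).neg.mono (by decide) le_rfl
  · -- x1
    fin_cases j
    · exact VN.zero
    · exact VN.zero
    · exact one'.neg.mono (by decide) le_rfl
    · exact hpm.neg.mono (by decide) le_rfl
    · exact lgm'.neg.mono (by decide) le_rfl
    · exact lgm'.mono (by decide) le_rfl
    · exact (VN.sc (norm_quarter h2).le (hX.imul M')).mono (by decide) le_rfl
    · exact (VN.sc (norm_quarter h2).le ((hX.imul tM).add
        ((VN.sc (norm_half h2).le (hX2.imul K')).mono (by decide) le_rfl))).mono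
          (by decide) le_rfl

theorem tup1_VN (h2 : p ≠ 2) (g : Gp) (j : Fin 8) : VN p 0 (p ^ 2 - 1) (tup1 g j) := by
  have K' : VN p 0 (p ^ 2 - 1) serK := VN.serK h2
  cases g
  · fin_cases j
    · exact VN.zero
    · exact VN.zero
    · exact VN.zero
    · exact VN.zero
    · exact VN.zero
    · exact VN.zero
    · exact (VN.one_sub_X.imul K').neg
    · exact (VN.one_sub_X.imul K'.th).neg
  all_goals exact VN.zero

/-- **O2**: the entries of the matrix -/
theorem ent0_norm (h2 : p ≠ 2) (h3 : p ≠ 3) (D : ℕ) (g : Gp) (k i : ℕ) (j : Fin 8)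
    (hk : k + 2 ≤ p ^ 2) :
    padicNorm p (ent0 D g k i j) ≤ (p : ℚ) ^ (-(wg g - wr j)) :=
  (VN.mon h2 D _ i).imul (tup0_VN h2 h3 g j) k (by omega)

theorem ent1_norm (h2 : p ≠ 2) (D : ℕ) (g : Gp) (k i : ℕ) (j : Fin 8) (hk : k + 2 ≤ p ^ 2) :
    padicNorm p (ent1 D g k i j) ≤ 1 := by
  have := (VN.mon h2 D g.cusp i).imul (tup1_VN h2 g j) k (by omega)
  rwa [neg_zero, zpow_zero] at this

end

end Vale.Agent.P030.H392
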