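import Mathlib
import Vale.Agent.P030.T.Defs
import Vale.Agent.P030.H392.Form

/-!
# P030, odd primes, middle range: the interval family and its rank

`MidDat` = the reduced series of the groups (at the level of `X ^ p`), `RR` = the model space of
row data, `Lam` = the values at the columns, `rho` = the basis rows, `io` = the interval family.
-/

set_option linter.unusedSectionVars false
set_option linter.unnecessarySimpa false

open PowerSeries Module

namespace Vale.Agent.P030.H392

open Vale.Agent.P030.T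

/-- the reduced series of the groups -/
structure MidDat (p : ℕ) where
  phi : Gp → Fin 6 → (ZMod p)⟦X⟧
  beta : Gp → (ZMod p)⟦X⟧
  tau : Gp → (ZMod p)⟦X⟧
  h : ℕ → ZMod p

section
variable (p : ℕ) [hp : Fact p.Prime] (D : ℕ)

/-- the model space of row data -/
abbrev RR := (Fin 6 → Polynomial.degreeLT (ZMod p) D)
  × Polynomial.degreeLT (ZMod p) (D + p) × Polynomial.degreeLT (ZMod p) (D + 1 - p)

theorem finrank_degreeLT (n : ℕ) : finrank (ZMod p) (Polynomial.degreeLT (ZMod p) n) = n := by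
  rw [LinearEquiv.finrank_eq (Polynomial.degreeLTEquiv (ZMod p) n), finrank_fin_fun]

theorem finrank_RR (hD : p ≤ D) : finrank (ZMod p) (RR p D) = 8 * D + 1 := by
  rw [Module.finrank_prod, Module.finrank_prod, Module.finrank_pi_fintype]
  simp only [finrank_degreeLT, Finset.sum_const, Finset.card_univ, Fintype.card_fin, smul_eq_mul]
  omega

variable (m : MidDat p)

/-- the series of a group on the model space -/
noncomputable def ser (g : Gp) : RR p D →ₗ[ZMod p] (ZMod p)⟦X⟧ where
  toFun P := ∑ j, ev p g.cusp (D - 1) (P.1 j) * up p (m.phi g j)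
    + ev p g.cusp (D + p - 1) P.2.1 * up p (m.beta g)
    + ev p g.cusp (D - p) P.2.2 * (cY p g.cusp ^ (p - 1) * up p (m.tau g))
  map_add' P Q := by
    simp only [Prod.fst_add, Prod.snd_add, Pi.add_apply, Submodule.coe_add, map_add, add_mul,
      Finset.sum_add_distrib]
    ring
  map_smul' q P := by
    simp only [Prod.smul_fst, Prod.smul_snd, Pi.smul_apply, Submodule.coe_smul, map_smul,
      smul_mul_assoc, RingHom.id_apply, smul_add, Finset.smul_sum]

/-- the values at the columns -/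
noncomputable def Lam : RR p D →ₗ[ZMod p] (Cl → ZMod p) where
  toFun P c := coeff c.2 (ser p D m c.1 P)
  map_add' P Q := by
    ext c
    simp only [map_add, Pi.add_apply]
  map_smul' q P := by
    ext c
    simp only [map_smul, Pi.smul_apply, RingHom.id_apply]

theorem Lam_apply (P : RR p D) (c : Cl) : Lam p D m P c = coeff c.2 (ser p D m c.1 P) := rfl

theorem ser_apply (g : Gp) (P : RR p D) : ser p D m g P
    = ∑ j, ev p g.cusp (D - 1) (P.1 j) * up p (m.phi g j)
    + ev p g.cusp (D + p - 1) P.2.1 * up p (m.beta g)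
    + ev p g.cusp (D - p) P.2.2 * (cY p g.cusp ^ (p - 1) * up p (m.tau g)) := rfl

/-! ### the basis rows -/

/-- `Σ_{q<p} h q X^q` -/
noncomputable def Hp : Polynomial (ZMod p) :=
  ∑ q ∈ Finset.range p, Polynomial.C (m.h q) * Polynomial.X ^ q

/-- `Σ_{q<p} q h q X^q` -/
noncomputable def Hp' : Polynomial (ZMod p) :=
  ∑ q ∈ Finset.range p, Polynomial.C ((q : ZMod p) * m.h q) * Polynomial.X ^ q

theorem natDegree_sum_le (f : ℕ → ZMod p) :
    (∑ q ∈ Finset.range p, Polynomial.C (f q) * Polynomial.X ^ q).natDegree ≤ p - 1 := by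
  refine Polynomial.natDegree_sum_le_of_forall_le _ _ fun q hq => ?_
  rw [Finset.mem_range] at hq
  exact (Polynomial.natDegree_C_mul_X_pow_le _ _).trans (by omega)

theorem natDeg_one_sub : (1 - Polynomial.X : Polynomial (ZMod p)).natDegree ≤ 1 :=
  (Polynomial.natDegree_sub_le _ _).trans (by simp)

theorem mem_degreeLT_of {n : ℕ} (hn : 0 < n) {P : Polynomial (ZMod p)}
    (h : P.natDegree ≤ n - 1) : P ∈ Polynomial.degreeLT (ZMod p) n := by
  rw [Polynomial.mem_degreeLT]
  refine lt_of_le_of_lt Polynomial.degree_le_natDegree ?_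
  exact_mod_cast (by omega : P.natDegree < n)

theorem natDeg_le_of_mem {n : ℕ} {P : Polynomial (ZMod p)}
    (h : P ∈ Polynomial.degreeLT (ZMod p) n) : P.natDegree ≤ n - 1 := by
  rw [Polynomial.mem_degreeLT] at h
  by_cases h0 : P = 0
  · rw [h0]
    simp
  · have := (Polynomial.natDegree_lt_iff_degree_lt h0).2 h
    omega

theorem mem_mono {f : ℕ → ZMod p} (a : Fin D) :
    (1 - Polynomial.X) * ((∑ q ∈ Finset.range p, Polynomial.C (f q) * Polynomial.X ^ q)
      * Polynomial.X ^ (a : ℕ)) ∈ Polynomial.degreeLT (ZMod p) (D + p) := by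
  have hp1 := hp.out.two_le
  have ha := a.2
  refine mem_degreeLT_of p (by omega) ?_
  refine Polynomial.natDegree_mul_le.trans ?_
  have h1 := natDeg_one_sub p
  have h2 : ((∑ q ∈ Finset.range p, Polynomial.C (f q) * Polynomial.X ^ q)
      * Polynomial.X ^ (a : ℕ)).natDegree ≤ (p - 1) + a := by
    refine Polynomial.natDegree_mul_le.trans ?_
    have h3 := natDegree_sum_le p f
    have h4 : (Polynomial.X ^ (a : ℕ) : Polynomial (ZMod p)).natDegree ≤ a :=
      Polynomial.natDegree_X_pow_le _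
    omega
  omega

theorem mem_X_pow {n a : ℕ} (h : a < n) :
    (Polynomial.X ^ a : Polynomial (ZMod p)) ∈ Polynomial.degreeLT (ZMod p) n :=
  mem_degreeLT_of p (by omega) ((Polynomial.natDegree_X_pow_le _).trans (by omega))

/-- the basis rows in the model space -/
noncomputable def rho (r : Fin D × Fin 8) : RR p D :=
  if h6 : (r.2 : ℕ) < 6 then
    (Pi.single ⟨r.2, h6⟩ ⟨Polynomial.X ^ (r.1 : ℕ), mem_X_pow p r.1.2⟩, 0, 0)
  else if r.2 = 6 then
    (0, ⟨(1 - Polynomial.X) * (Hp p m * Polynomial.X ^ (r.1 : ℕ)), mem_mono p D r.1⟩, 0)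
  else if ha : (r.1 : ℕ) + p ≤ D then
    (0, 0, ⟨Polynomial.X ^ (r.1 : ℕ), mem_X_pow p (by omega)⟩)
  else (0, ⟨(1 - Polynomial.X) * (Hp' p m * Polynomial.X ^ (r.1 : ℕ)), mem_mono p D r.1⟩, 0)

theorem ev_rho_Q {c : Fin 4} {f : ℕ → ZMod p} (a : Fin D) :
    ev p c (D + p - 1) ((1 - Polynomial.X)
      * ((∑ q ∈ Finset.range p, Polynomial.C (f q) * Polynomial.X ^ q)
      * Polynomial.X ^ (a : ℕ)))
    = cA p c ^ (a : ℕ) * cB p c ^ (D - 1 - a)
      * (∑ q ∈ Finset.range p, C (f q) * (cA p c ^ q * cB p c ^ (p - 1 - q)))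
      * (cB p c - cA p c) := by
  have hp1 := hp.out.two_le
  have ha := a.2
  have h0 : D + p - 1 = 1 + ((p - 1) + (D - 1)) := by omega
  have h4 : (Polynomial.X ^ (a : ℕ) : Polynomial (ZMod p)).natDegree ≤ D - 1 :=
    (Polynomial.natDegree_X_pow_le _).trans (by omega)
  rw [h0, ev_mul p c (natDeg_one_sub p), ev_mul p c (natDegree_sum_le p f) h4, ev_one_sub_X,
    ev_X_pow p c (by omega : (a : ℕ) ≤ D - 1), map_sum]
  · have h5 : ∀ q ∈ Finset.range p, ev p c (p - 1) (Polynomial.C (f q) * Polynomial.X ^ q)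
        = C (f q) * (cA p c ^ q * cB p c ^ (p - 1 - q)) := by
      intro q hq
      rw [Finset.mem_range] at hq
      rw [← Polynomial.smul_eq_C_mul, map_smul, ev_X_pow p c (by omega : q ≤ p - 1),
        smul_eq_C_mul]
    rw [Finset.sum_congr rfl h5]
    ring
  · refine Polynomial.natDegree_mul_le.trans ?_
    have h3 := natDegree_sum_le p f
    omega

/-- the values of the basis rows -/
structure MidHyp (N : Gp → ℕ) (ent : Fin D × Fin 8 → Cl → ZMod p) : Prop where
  lo : ∀ (a : Fin D) (j : Fin 8) (hj : (j : ℕ) < 6) (g : Gp) (k : ℕ), k < N g →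
    ent (a, j) (g, k) = coeff k (cA p g.cusp ^ (a : ℕ) * cB p g.cusp ^ (D - 1 - a)
      * up p (m.phi g ⟨j, hj⟩))
  six : ∀ (a : Fin D) (g : Gp) (k : ℕ), k < N g →
    ent (a, 6) (g, k) = coeff k (cA p g.cusp ^ (a : ℕ) * cB p g.cusp ^ (D - 1 - a)
      * (∑ q ∈ Finset.range p, C (m.h q) * (cA p g.cusp ^ q * cB p g.cusp ^ (p - 1 - q)))
      * (cB p g.cusp - cA p g.cusp) * up p (m.beta g))
  top : ∀ (a : Fin D) (g : Gp) (k : ℕ), k < N g → ¬ (a : ℕ) + p ≤ D →
    ent (a, 7) (g, k) = coeff k (cA p g.cusp ^ (a : ℕ) * cB p g.cusp ^ (D - 1 - a)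
      * (∑ q ∈ Finset.range p,
          C ((q : ZMod p) * m.h q) * (cA p g.cusp ^ q * cB p g.cusp ^ (p - 1 - q)))
      * (cB p g.cusp - cA p g.cusp) * up p (m.beta g))
  cor : ∀ (a : Fin D) (g : Gp) (k : ℕ), k < N g → (a : ℕ) + p ≤ D →
    ent (a, 7) (g, k) = coeff k (cA p g.cusp ^ (a : ℕ) * cB p g.cusp ^ (D - p - a)
      * (cY p g.cusp ^ (p - 1) * up p (m.tau g)))

/-- the basis rows have the right values -/
theorem ent_eq_Lam {N : Gp → ℕ} {ent : Fin D × Fin 8 → Cl → ZMod p} (H : MidHyp p D m N ent)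
    (r : Fin D × Fin 8) (c : Cl) (hc : c.2 < N c.1) : ent r c = Lam p D m (rho p D m r) c := by
  obtain ⟨a, j⟩ := r
  obtain ⟨g, k⟩ := c
  rw [Lam_apply, ser_apply]
  by_cases h6 : (j : ℕ) < 6
  · rw [H.lo a j h6 g k hc]
    have h1 : rho p D m (a, j)
        = (Pi.single ⟨j, h6⟩ ⟨Polynomial.X ^ (a : ℕ), mem_X_pow p a.2⟩, 0, 0) := by
      rw [rho, dif_pos h6]
    rw [h1]
    simp only [Submodule.coe_zero, map_zero, zero_mul, add_zero]
    rw [Finset.sum_eq_single ⟨j, h6⟩]
    · rw [Pi.single_eq_same, ev_X_pow p g.cusp (by have := a.2; omega : (a : ℕ) ≤ D - 1)]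
    · intro i _ hi
      rw [Pi.single_eq_of_ne hi, Submodule.coe_zero, map_zero, zero_mul]
    · intro hi
      exact absurd (Finset.mem_univ _) hi
  · by_cases hj6 : j = 6
    · subst hj6
      rw [H.six a g k hc]
      have h1 : rho p D m (a, 6) = (0, ⟨(1 - Polynomial.X)
          * (Hp p m * Polynomial.X ^ (a : ℕ)), mem_mono p D a⟩, 0) := by
        rw [rho, dif_neg h6, if_pos rfl]
      rw [h1]
      simp only [Pi.zero_apply, Submodule.coe_zero, map_zero, zero_mul, add_zero,
        Finset.sum_const_zero, zero_add]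
      rw [Hp, ev_rho_Q]
    · have hj7 : j = 7 := by
        have := j.2
        apply Fin.ext
        have h8 : (j : ℕ) ≠ 6 := fun h => hj6 (Fin.ext h)
        change (j : ℕ) = 7
        omega
      subst hj7
      by_cases ha : (a : ℕ) + p ≤ D
      · rw [H.cor a g k hc ha]
        have h1 : rho p D m (a, 7)
            = (0, 0, ⟨Polynomial.X ^ (a : ℕ), mem_X_pow p (by omega)⟩) := by
          rw [rho, dif_neg h6, if_neg hj6, dif_pos ha]
        rw [h1]
        simp only [Pi.zero_apply, Submodule.coe_zero, map_zero, zero_mul, add_zero,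
          Finset.sum_const_zero, zero_add]
        rw [ev_X_pow p g.cusp (by omega : (a : ℕ) ≤ D - p)]
      · rw [H.top a g k hc ha]
        have h1 : rho p D m (a, 7) = (0, ⟨(1 - Polynomial.X)
            * (Hp' p m * Polynomial.X ^ (a : ℕ)), mem_mono p D a⟩, 0) := by
          rw [rho, dif_neg h6, if_neg hj6, dif_neg ha]
        rw [h1]
        simp only [Pi.zero_apply, Submodule.coe_zero, map_zero, zero_mul, add_zero,
          Finset.sum_const_zero, zero_add]
        rw [Hp', ev_rho_Q (f := fun q => (q : ZMod p) * m.h q)]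

end

end Vale.Agent.P030.H392
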