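import Mathlib
import Vale.Agent.P030.T.Defs
import Vale.Agent.P030.H392.Form
import Vale.Agent.P030.H392.Mid

/-!
# P030, odd primes, middle range: the rank on the interval family
-/

set_option linter.unusedSectionVars false
set_option linter.unnecessarySimpa false

open PowerSeries Module

namespace Vale.Agent.P030.H392

open Vale.Agent.P030.T

section
variable (p : ℕ) [hp : Fact p.Prime] (D : ℕ)

/-- parameters of the interval family -/
abbrev Gam (M : ℕ) := (Fin 6 → Polynomial.degreeLT (ZMod p) M)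
  × (Fin 6 → Polynomial.degreeLT (ZMod p) M) × (Fin 4 → Polynomial.degreeLT (ZMod p) M)

theorem finrank_Gam (M : ℕ) : finrank (ZMod p) (Gam p M) = 16 * M := by
  rw [Module.finrank_prod, Module.finrank_prod, Module.finrank_pi_fintype,
    Module.finrank_pi_fintype]
  simp only [finrank_degreeLT, Finset.sum_const, Finset.card_univ, Fintype.card_fin, smul_eq_mul]
  omega

variable {D} {y M : ℕ}

theorem mem_io2 (hM : 1 ≤ M) (hD : y + M + p = D) (a b : Polynomial.degreeLT (ZMod p) M) :
    (1 + Polynomial.X) ^ y * (a.1 + Polynomial.X ^ p * b.1)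
      ∈ Polynomial.degreeLT (ZMod p) D := by
  have h1 := natDeg_Y_pow p y
  have h2 := natDeg_le_of_mem p a.2
  have h3 := natDeg_le_of_mem p b.2
  have h4 : (Polynomial.X ^ p * b.1).natDegree ≤ p + (M - 1) :=
    Polynomial.natDegree_mul_le.trans (by
      have := Polynomial.natDegree_X_pow_le (R := ZMod p) p
      omega)
  have h5 := Polynomial.natDegree_add_le a.1 (Polynomial.X ^ p * b.1)
  refine mem_degreeLT_of p (by omega) (Polynomial.natDegree_mul_le.trans ?_)
  have h6 := max_le (h2.trans (by omega : M - 1 ≤ p + (M - 1))) h4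
  omega

theorem mem_io3 (hM : 1 ≤ M) (hD : y + M + p = D) (a b c : Polynomial.degreeLT (ZMod p) M) :
    (1 + Polynomial.X) ^ y * (a.1 + Polynomial.X ^ p
        * (b.1 + Polynomial.X ^ p * c.1)) ∈ Polynomial.degreeLT (ZMod p) (D + p) := by
  have h1 := natDeg_Y_pow p y
  have h2 := natDeg_le_of_mem p a.2
  have h3 := natDeg_le_of_mem p b.2
  have h3' := natDeg_le_of_mem p c.2
  have hX := Polynomial.natDegree_X_pow_le (R := ZMod p) p
  have h4 : (Polynomial.X ^ p * c.1).natDegree ≤ p + (M - 1) :=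
    Polynomial.natDegree_mul_le.trans (by omega)
  have h5 := (Polynomial.natDegree_add_le b.1 (Polynomial.X ^ p * c.1)).trans
    (max_le (h3.trans (by omega : M - 1 ≤ p + (M - 1))) h4)
  have h6 : (Polynomial.X ^ p * (b.1 + Polynomial.X ^ p * c.1)).natDegree
      ≤ p + (p + (M - 1)) := Polynomial.natDegree_mul_le.trans (by omega)
  have h7 := (Polynomial.natDegree_add_le a.1 (Polynomial.X ^ p
    * (b.1 + Polynomial.X ^ p * c.1))).trans
    (max_le (h2.trans (by omega : M - 1 ≤ p + (p + (M - 1)))) h6)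
  refine mem_degreeLT_of p (by omega) (Polynomial.natDegree_mul_le.trans ?_)
  omega

theorem mem_io1 (hM : 1 ≤ M) (hD : y + M + p = D) (a : Polynomial.degreeLT (ZMod p) M) :
    (1 + Polynomial.X) ^ (y + 1) * a.1
      ∈ Polynomial.degreeLT (ZMod p) (D + 1 - p) := by
  have h1 := natDeg_Y_pow p (y + 1)
  have h2 := natDeg_le_of_mem p a.2
  refine mem_degreeLT_of p (by omega) (Polynomial.natDegree_mul_le.trans ?_)
  omega

/-- the interval family -/
noncomputable def io (hM : 1 ≤ M) (hD : y + M + p = D) : Gam p M →ₗ[ZMod p] RR p D where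
  toFun γ := (fun j => ⟨_, mem_io2 p hM hD (γ.1 j) (γ.2.1 j)⟩,
    ⟨_, mem_io3 p hM hD (γ.2.2 0) (γ.2.2 1) (γ.2.2 2)⟩, ⟨_, mem_io1 p hM hD (γ.2.2 3)⟩)
  map_add' P Q := by
    refine Prod.ext ?_ (Prod.ext ?_ ?_)
    · funext j
      apply Subtype.ext
      simp only [Prod.fst_add, Prod.snd_add, Pi.add_apply, Submodule.coe_add]
      ring
    · apply Subtype.ext
      simp only [Prod.fst_add, Prod.snd_add, Pi.add_apply, Submodule.coe_add]
      ring
    · apply Subtype.ext
      simp only [Prod.fst_add, Prod.snd_add, Pi.add_apply, Submodule.coe_add]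
      ring
  map_smul' q P := by
    refine Prod.ext ?_ (Prod.ext ?_ ?_)
    · funext j
      apply Subtype.ext
      simp only [Prod.smul_fst, Prod.smul_snd, Pi.smul_apply, Submodule.coe_smul,
        RingHom.id_apply, Polynomial.smul_eq_C_mul]
      ring
    · apply Subtype.ext
      simp only [Prod.smul_fst, Prod.smul_snd, Pi.smul_apply, Submodule.coe_smul,
        RingHom.id_apply, Polynomial.smul_eq_C_mul]
      ring
    · apply Subtype.ext
      simp only [Prod.smul_fst, Prod.smul_snd, Pi.smul_apply, Submodule.coe_smul,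
        RingHom.id_apply, Polynomial.smul_eq_C_mul]
      ring

theorem split_zero {M : ℕ} (hMp : M ≤ p) (a : Polynomial.degreeLT (ZMod p) M)
    {Z : Polynomial (ZMod p)} (h : a.1 + Polynomial.X ^ p * Z = 0) :
    a = 0 ∧ Z = 0 := by
  have ha : a.1 = 0 := by
    ext n
    rw [Polynomial.coeff_zero]
    by_cases hn : n < p
    · have h1 := congrArg (fun P => Polynomial.coeff P n) h
      simp only [Polynomial.coeff_add, Polynomial.coeff_X_pow_mul', Polynomial.coeff_zero,
        if_neg (not_le.2 hn), add_zero] at h1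
      exact h1
    · refine Polynomial.coeff_eq_zero_of_degree_lt (lt_of_lt_of_le
        (Polynomial.mem_degreeLT.1 a.2) ?_)
      exact_mod_cast (by omega : M ≤ n)
  refine ⟨Subtype.ext ha, ?_⟩
  rw [ha, zero_add] at h
  exact (mul_eq_zero.1 h).resolve_left (pow_ne_zero _ Polynomial.X_ne_zero)

theorem Y_pow_ne (n : ℕ) : (1 + Polynomial.X : Polynomial (ZMod p)) ^ n ≠ 0 := by
  apply pow_ne_zero
  intro h
  have := congrArg (fun P => Polynomial.coeff P 1) h
  simp [Polynomial.coeff_one] at this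

theorem io_injective (hM : 1 ≤ M) (hD : y + M + p = D) (hMp : M ≤ p) :
    Function.Injective (io p hM hD) := by
  rw [injective_iff_map_eq_zero]
  rintro ⟨a, b, q⟩ h
  have h1 : ∀ j, a j = 0 ∧ b j = 0 := by
    intro j
    have h2 := congrArg (fun P : RR p D => ((P.1 j : Polynomial.degreeLT (ZMod p) D)
      : Polynomial (ZMod p))) h
    have h3 : (1 + Polynomial.X) ^ y * ((a j).1 + Polynomial.X ^ p * (b j).1) = 0 := h2
    have h4 := (mul_eq_zero.1 h3).resolve_left (Y_pow_ne p y)
    obtain ⟨h5, h6⟩ := split_zero p hMp (a j) h4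
    exact ⟨h5, Subtype.ext h6⟩
  have h7 : q 0 = 0 ∧ q 1 = 0 ∧ q 2 = 0 := by
    have h2 := congrArg (fun P : RR p D => ((P.2.1 : Polynomial.degreeLT (ZMod p) (D + p))
      : Polynomial (ZMod p))) h
    have h3 : (1 + Polynomial.X) ^ y * ((q 0).1 + Polynomial.X ^ p
        * ((q 1).1 + Polynomial.X ^ p * (q 2).1)) = 0 := h2
    have h4 := (mul_eq_zero.1 h3).resolve_left (Y_pow_ne p y)
    obtain ⟨h5, h6⟩ := split_zero p hMp (q 0) h4
    obtain ⟨h8, h9⟩ := split_zero p hMp (q 1) h6
    exact ⟨h5, h8, Subtype.ext h9⟩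
  have h10 : q 3 = 0 := by
    have h2 := congrArg (fun P : RR p D => ((P.2.2 : Polynomial.degreeLT (ZMod p) (D + 1 - p))
      : Polynomial (ZMod p))) h
    have h3 : (1 + Polynomial.X) ^ (y + 1) * (q 3).1 = 0 := h2
    exact Subtype.ext ((mul_eq_zero.1 h3).resolve_left (Y_pow_ne p (y + 1)))
  refine Prod.ext ?_ (Prod.ext ?_ ?_)
  · funext j
    exact (h1 j).1
  · funext j
    exact (h1 j).2
  · funext j
    obtain ⟨h11, h12, h13⟩ := h7
    fin_cases j
    · exact h11
    · exact h12
    · exact h13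
    · exact h10

theorem finrank_range_io (hM : 1 ≤ M) (hD : y + M + p = D) (hMp : M ≤ p) :
    finrank (ZMod p) (LinearMap.range (io p hM hD)) = 16 * M := by
  rw [LinearMap.finrank_range_of_inj (io_injective p hM hD hMp), finrank_Gam]

/-! ### the values on the family -/

variable (m : MidDat p)

/-- the series of the four last slots -/
noncomputable def qs (g : Gp) : Fin 4 → (ZMod p)⟦X⟧ :=
  ![cB p g.cusp * cB p g.cusp * m.beta g, cA p g.cusp * cB p g.cusp * m.beta g,
    cA p g.cusp * cA p g.cusp * m.beta g, cY p g.cusp * m.tau g]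

/-- the form of order `k` of the group `g` -/
noncomputable def EE (M : ℕ) (g : Gp) (k : ℕ) :
    Gam p M →ₗ[ZMod p] Polynomial.degreeLT (ZMod p) M where
  toFun γ := ∑ j, coeff k (cB p g.cusp * m.phi g j) • γ.1 j
    + ∑ j, coeff k (cA p g.cusp * m.phi g j) • γ.2.1 j + ∑ l, coeff k (qs p m g l) • γ.2.2 l
  map_add' P Q := by
    simp only [Prod.fst_add, Prod.snd_add, Pi.add_apply, smul_add, Finset.sum_add_distrib]
    abel
  map_smul' q P := by
    simp only [Prod.smul_fst, Prod.smul_snd, Pi.smul_apply, RingHom.id_apply, smul_add,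
      Finset.smul_sum, smul_comm q]

theorem EE_apply (g : Gp) (k : ℕ) (γ : Gam p M) : EE p m M g k γ
    = ∑ j, coeff k (cB p g.cusp * m.phi g j) • γ.1 j
    + ∑ j, coeff k (cA p g.cusp * m.phi g j) • γ.2.1 j
    + ∑ l, coeff k (qs p m g l) • γ.2.2 l := rfl

theorem ser_io (hM : 1 ≤ M) (hD : y + M + p = D) (g : Gp) (γ : Gam p M) :
    ser p D m g (io p hM hD γ)
      = ∑ j, cY p g.cusp ^ y * ev p g.cusp (M - 1) (γ.1 j).1 * up p (cB p g.cusp * m.phi g j)
      + ∑ j, cY p g.cusp ^ y * ev p g.cusp (M - 1) (γ.2.1 j) * up p (cA p g.cusp * m.phi g j)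
      + ∑ l, cY p g.cusp ^ y * ev p g.cusp (M - 1) (γ.2.2 l) * up p (qs p m g l) := by
  obtain ⟨a, b, q⟩ := γ
  have hp2 := hp.out.two_le
  have hdeg : ∀ P : Polynomial.degreeLT (ZMod p) M,
      P.1.natDegree ≤ M - 1 := fun P => natDeg_le_of_mem p P.2
  have hX := Polynomial.natDegree_X_pow_le (R := ZMod p) p
  set c := g.cusp with hc
  -- two terms
  have h2 : ∀ P Q : Polynomial.degreeLT (ZMod p) M,
      ev p c (M - 1 + p) (P.1 + Polynomial.X ^ p * Q.1)
        = ev p c (M - 1) P.1 * up p (cB p c) + ev p c (M - 1) Q.1 * up p (cA p c) := by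
    intro P Q
    rw [map_add, ev_add_p p c (hdeg P), ev_X_p_mul p c (hdeg Q)]
  have hd2 : ∀ P Q : Polynomial.degreeLT (ZMod p) M,
      (P.1 + Polynomial.X ^ p * Q.1).natDegree ≤ M - 1 + p := by
    intro P Q
    have h4 : (Polynomial.X ^ p * Q.1).natDegree ≤ p + (M - 1) :=
      Polynomial.natDegree_mul_le.trans (by have := hdeg Q; omega)
    exact (Polynomial.natDegree_add_le _ _).trans
      (max_le ((hdeg P).trans (by omega)) (by omega))
  have h3 : ∀ P Q R : Polynomial.degreeLT (ZMod p) M,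
      ev p c (M - 1 + p + p) (P.1 + Polynomial.X ^ p * (Q.1 + Polynomial.X ^ p * R.1))
        = ev p c (M - 1) P.1 * up p (cB p c) * up p (cB p c)
          + (ev p c (M - 1) Q.1 * up p (cB p c) + ev p c (M - 1) R.1 * up p (cA p c))
            * up p (cA p c) := by
    intro P Q R
    rw [map_add, ev_X_p_mul p c (hd2 Q R), h2, ev_add_p p c ((hdeg P).trans (by omega)),
      ev_add_p p c (hdeg P)]
  have hd3 : ∀ P Q R : Polynomial.degreeLT (ZMod p) M,
      (P.1 + Polynomial.X ^ p * (Q.1 + Polynomial.X ^ p * R.1)).natDegree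
        ≤ M - 1 + p + p := by
    intro P Q R
    have h4 : (Polynomial.X ^ p * (Q.1 + Polynomial.X ^ p * R.1)).natDegree
        ≤ p + (M - 1 + p) :=
      Polynomial.natDegree_mul_le.trans (by have := hd2 Q R; omega)
    exact (Polynomial.natDegree_add_le _ _).trans
      (max_le ((hdeg P).trans (by omega)) (by omega))
  have e1 : ∀ j, ev p c (D - 1) ((io p hM hD (a, b, q)).1 j).1
      = cY p c ^ y * (ev p c (M - 1) (a j).1 * up p (cB p c)
        + ev p c (M - 1) (b j).1 * up p (cA p c)) := by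
    intro j
    have h4 : ((io p hM hD (a, b, q)).1 j).1
        = (1 + Polynomial.X) ^ y * ((a j).1 + Polynomial.X ^ p * (b j).1) := rfl
    rw [h4, show D - 1 = y + (M - 1 + p) by omega, ev_mul p c (natDeg_Y_pow p y) (hd2 _ _),
      ev_Y_pow, h2]
  have e2 : ev p c (D + p - 1) (io p hM hD (a, b, q)).2.1.1
      = cY p c ^ y * (ev p c (M - 1) (q 0).1 * up p (cB p c) * up p (cB p c)
          + (ev p c (M - 1) (q 1).1 * up p (cB p c) + ev p c (M - 1) (q 2).1 * up p (cA p c))
            * up p (cA p c)) := by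
    have h4 : (io p hM hD (a, b, q)).2.1.1
        = (1 + Polynomial.X) ^ y * ((q 0).1 + Polynomial.X ^ p
          * ((q 1).1 + Polynomial.X ^ p * (q 2).1)) := rfl
    rw [h4, show D + p - 1 = y + (M - 1 + p + p) by omega,
      ev_mul p c (natDeg_Y_pow p y) (hd3 _ _ _), ev_Y_pow, h3]
  have e3 : ev p c (D - p) (io p hM hD (a, b, q)).2.2.1
      = cY p c ^ (y + 1) * ev p c (M - 1) (q 3).1 := by
    have h4 : (io p hM hD (a, b, q)).2.2.1
        = (1 + Polynomial.X) ^ (y + 1) * (q 3).1 := rfl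
    rw [h4, show D - p = (y + 1) + (M - 1) by omega, ev_mul p c (natDeg_Y_pow p (y + 1)) (hdeg _),
      ev_Y_pow]
  have e4 : cY p c ^ (y + 1) * cY p c ^ (p - 1) = cY p c ^ y * up p (cY p c) := by
    rw [up_eq_pow, ← pow_add, ← pow_add]
    congr 1
    omega
  rw [ser_apply, ← hc, e2, e3, Finset.sum_congr rfl fun j _ => by rw [e1 j]]
  simp only [Fin.sum_univ_four, qs, ← hc, up_mul, Matrix.cons_val_zero, Matrix.cons_val_one,
    Matrix.cons_val]
  rw [← Finset.sum_add_distrib]
  have e5 : ∑ j, cY p c ^ y * (ev p c (M - 1) (a j).1 * up p (cB p c)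
        + ev p c (M - 1) (b j).1 * up p (cA p c)) * up p (m.phi g j)
      = ∑ j, (cY p c ^ y * ev p c (M - 1) (a j).1 * (up p (cB p c) * up p (m.phi g j))
        + cY p c ^ y * ev p c (M - 1) (b j).1 * (up p (cA p c) * up p (m.phi g j))) :=
    Finset.sum_congr rfl fun j _ => by ring
  rw [e5]
  linear_combination (ev p c (M - 1) (q 3).1 * up p (m.tau g)) * e4

end

end Vale.Agent.P030.H392
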