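import Mathlib
import Vale.Agent.P030.T.Defs
import Vale.Agent.P030.H392.Form
import Vale.Agent.P030.H392.Mid
import Vale.Agent.P030.H392.MidRank

/-!
# P030, odd primes, middle range: the coefficient formula and the relation
-/

set_option linter.unusedSectionVars false
set_option linter.unnecessarySimpa false
set_option linter.unusedSimpArgs false

open PowerSeries Module

namespace Vale.Agent.P030.H392

open Vale.Agent.P030.T

section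
variable (p : ℕ) [hp : Fact p.Prime] {D y M : ℕ} (m : MidDat p)

theorem coeff_EE (g : Gp) (i n : ℕ) (γ : Gam p M) (F : (ZMod p)⟦X⟧) :
    coeff n (F * ev p g.cusp (M - 1) (EE p m M g i γ).1)
      = ∑ j, coeff n (F * ev p g.cusp (M - 1) (γ.1 j).1) * coeff i (cB p g.cusp * m.phi g j)
      + ∑ j, coeff n (F * ev p g.cusp (M - 1) (γ.2.1 j).1) * coeff i (cA p g.cusp * m.phi g j)
      + ∑ l, coeff n (F * ev p g.cusp (M - 1) (γ.2.2 l).1) * coeff i (qs p m g l) := by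
  have key : ∀ {ι : Type} [Fintype ι] (c : ι → ZMod p) (a : ι → Polynomial.degreeLT (ZMod p) M),
      coeff n (F * ev p g.cusp (M - 1) (∑ j, c j • a j : Polynomial.degreeLT (ZMod p) M).1)
        = ∑ j, coeff n (F * ev p g.cusp (M - 1) (a j).1) * c j := by
    intro ι _ c a
    have h1 : (∑ j, c j • a j : Polynomial.degreeLT (ZMod p) M).1 = ∑ j, c j • (a j).1 := by
      rw [AddSubmonoidClass.coe_finsetSum]
      rfl
    rw [h1, map_sum, Finset.mul_sum, map_sum]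
    refine Finset.sum_congr rfl fun j _ => ?_
    rw [map_smul, mul_smul_comm, map_smul, smul_eq_mul, mul_comm]
  rw [EE_apply]
  have h2 : ∀ a b c : Polynomial.degreeLT (ZMod p) M,
      coeff n (F * ev p g.cusp (M - 1) (a + b + c).1)
        = coeff n (F * ev p g.cusp (M - 1) a.1) + coeff n (F * ev p g.cusp (M - 1) b.1)
          + coeff n (F * ev p g.cusp (M - 1) c.1) := by
    intro a b c
    have h3 : (a + b + c).1 = a.1 + b.1 + c.1 := rfl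
    rw [h3, map_add, map_add, mul_add, mul_add, map_add, map_add]
  rw [h2, key, key, key]

/-- the values of the family at the columns -/
theorem coeff_ser_io (hM : 1 ≤ M) (hD : y + M + p = D) (g : Gp) (k : ℕ) (γ : Gam p M) :
    coeff k (ser p D m g (io p hM hD γ))
      = ∑ i ∈ Finset.range (k / p + 1), coeff (k - p * i)
          (cY p g.cusp ^ y * ev p g.cusp (M - 1) (EE p m M g i γ).1) := by
  rw [ser_io, map_add, map_add, map_sum, map_sum, map_sum]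
  simp only [coeff_mul_up]
  rw [Finset.sum_comm, Finset.sum_comm (s := Finset.univ) (t := Finset.range (k / p + 1))
    (f := fun j i => coeff (k - p * i) (cY p g.cusp ^ y * ev p g.cusp (M - 1) (γ.2.1 j).1)
      * coeff i (cA p g.cusp * m.phi g j)),
    Finset.sum_comm (s := Finset.univ) (t := Finset.range (k / p + 1))
    (f := fun l i => coeff (k - p * i) (cY p g.cusp ^ y * ev p g.cusp (M - 1) (γ.2.2 l).1)
      * coeff i (qs p m g l)), ← Finset.sum_add_distrib, ← Finset.sum_add_distrib]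
  refine Finset.sum_congr rfl fun i _ => ?_
  rw [coeff_EE]

/-! ### low coefficients -/

variable {p}

theorem c0_mul (f g : (ZMod p)⟦X⟧) : coeff 0 (f * g) = coeff 0 f * coeff 0 g := by
  simp [coeff_zero_eq_constantCoeff]

theorem c1_mul (f g : (ZMod p)⟦X⟧) :
    coeff 1 (f * g) = coeff 0 f * coeff 1 g + coeff 1 f * coeff 0 g := by
  rw [coeff_mul, Finset.Nat.sum_antidiagonal_eq_sum_range_succ_mk, Finset.sum_range_succ,
    Finset.sum_range_one]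

variable (p) in
theorem cAB_vals : coeff 0 (cA p 0) = 0 ∧ coeff 1 (cA p 0) = 1 ∧ coeff 0 (cB p 0) = 1
    ∧ coeff 1 (cB p 0) = 1 ∧ coeff 0 (cA p 1) = -(1 / 2) ∧ coeff 1 (cA p 1) = -(1 / 2)
    ∧ coeff 0 (cB p 1) = 1 / 2 ∧ coeff 1 (cB p 1) = -(1 / 2) ∧ coeff 0 (cA p 2) = -1
    ∧ coeff 0 (cB p 2) = 0 ∧ coeff 0 (cA p 3) = -(1 / 2) ∧ coeff 0 (cB p 3) = -(1 / 2) := by
  have hg0 : coeff 0 (gF p) = 1 := by rw [gF, coeff_mk]
  have hg1 : coeff 1 (gF p) = 1 := by rw [gF, coeff_mk]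
  have a0 : cA p 0 = X * gF p := rfl
  have a1 : cA p 1 = -(C (1 / 2) * (1 + X)) := rfl
  have a2 : cA p 2 = -gF p := rfl
  have a3 : cA p 3 = -(C (1 / 2) * (1 + X)) := rfl
  have b0 : cB p 0 = gF p := rfl
  have b1 : cB p 1 = C (1 / 2) * (1 - X) := rfl
  have b2 : cB p 2 = -(X * gF p) := rfl
  have b3 : cB p 3 = -(C (1 / 2) * (1 - X)) := rfl
  have x0 : coeff 0 (X : (ZMod p)⟦X⟧) = 0 := by rw [coeff_X, if_neg (by decide)]
  have x1 : coeff 1 (X : (ZMod p)⟦X⟧) = 1 := by rw [coeff_X, if_pos rfl]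
  have o0 : coeff 0 (1 : (ZMod p)⟦X⟧) = 1 := by rw [coeff_one, if_pos rfl]
  have o1 : coeff 1 (1 : (ZMod p)⟦X⟧) = 0 := by rw [coeff_one, if_neg (by decide)]
  have k0 : coeff 0 (C (1 / 2 : ZMod p)) = 1 / 2 := by rw [coeff_C, if_pos rfl]
  have k1 : coeff 1 (C (1 / 2 : ZMod p)) = 0 := by rw [coeff_C, if_neg (by decide)]
  rw [a0, a1, a2, a3, b0, b1, b2, b3]
  refine ⟨?_, ?_, ?_, ?_, ?_, ?_, ?_, ?_, ?_, ?_, ?_, ?_⟩ <;>
  simp only [map_neg, c0_mul, c1_mul, map_add, map_sub, hg0, hg1, x0, x1, o0, o1, k0, k1] <;>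
  ring

variable (p) in
theorem cY_vals (h2 : (2 : ZMod p) ≠ 0) : coeff 0 (cY p 0) = 1 ∧ coeff 1 (cY p 0) = 2
    ∧ coeff 0 (cY p 1) = 0 ∧ coeff 1 (cY p 1) = -1 ∧ coeff 0 (cY p 2) = -1
    ∧ coeff 0 (cY p 3) = -1 := by
  obtain ⟨a00, a01, b00, b01, a10, a11, b10, b11, a20, b20, a30, b30⟩ := cAB_vals p
  refine ⟨?_, ?_, ?_, ?_, ?_, ?_⟩ <;>
  simp only [cY, map_add, a00, a01, b00, b01, a10, a11, b10, b11, a20, b20, a30, b30] <;>
  field_simp <;> ring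

/-- the values of the reduced series at the orders `0` and `1` -/
structure MidTab (χ : ZMod p) : Prop where
  z1_0 : ∀ j, coeff 0 (m.phi .z1 j) = (![1, 0, 0, 0, 0, 0] : Fin 6 → ZMod p) j
  z1_1 : ∀ j, coeff 1 (m.phi .z1 j) = (![0, 0, 1, 1, 0, 0] : Fin 6 → ZMod p) j
  zl_0 : ∀ j, coeff 0 (m.phi .zl j) = (![0, 1, 0, 0, 0, 0] : Fin 6 → ZMod p) j
  zl_1 : ∀ j, coeff 1 (m.phi .zl j) = (![0, 0, 0, 0, 3 / 2, 1 / 2] : Fin 6 → ZMod p) j
  w1_0 : ∀ j, coeff 0 (m.phi .w1 j) = (![1, 0, 0, 0, 0, 0] : Fin 6 → ZMod p) j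
  w1_1 : ∀ j, coeff 1 (m.phi .w1 j) = (![0, 0, -1, 0, -1, 0] : Fin 6 → ZMod p) j
  wl_0 : ∀ j, coeff 0 (m.phi .wl j) = (![0, 1, -1, 0, 0, 0] : Fin 6 → ZMod p) j
  wl_1 : ∀ j, coeff 1 (m.phi .wl j) = (![0, 0, 0, -2, -(1 / 2), 1 / 2] : Fin 6 → ZMod p) j
  wy_0 : ∀ j, coeff 0 (m.phi .wy j) = (![0, 0, 0, -(4 / 3), -(4 / 3), 0] : Fin 6 → ZMod p) j
  v2_0 : ∀ j, coeff 0 (m.phi .v2 j) = (![0, 0, 0, -1, -1, 1] : Fin 6 → ZMod p) j
  vl_0 : ∀ j, coeff 0 (m.phi .vl j) = (![0, 0, 0, 0, -1, 1] : Fin 6 → ZMod p) j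
  v8_0 : ∀ j, coeff 0 (m.phi .v8 j) = (![0, 0, 0, 0, 0, 0] : Fin 6 → ZMod p) j
  vb_0 : ∀ j, coeff 0 (m.phi .vb j) = (![0, 0, 1, 0, 0, 0] : Fin 6 → ZMod p) j
  x2_0 : ∀ j, coeff 0 (m.phi .x2 j) = (![0, 0, 0, 0, 0, 1 / 2] : Fin 6 → ZMod p) j
  b_z1_0 : coeff 0 (m.beta .z1) = 0
  b_z1_1 : coeff 1 (m.beta .z1) = -(χ / 4)
  b_zl_0 : coeff 0 (m.beta .zl) = 0
  b_zl_1 : coeff 1 (m.beta .zl) = 0
  b_w1_0 : coeff 0 (m.beta .w1) = 0
  b_w1_1 : coeff 1 (m.beta .w1) = -(χ / 4)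
  b_wl_0 : coeff 0 (m.beta .wl) = 0
  b_wl_1 : coeff 1 (m.beta .wl) = 0
  b_wy_0 : coeff 0 (m.beta .wy) = -χ
  b_v2_0 : coeff 0 (m.beta .v2) = 0
  b_vl_0 : coeff 0 (m.beta .vl) = 0
  b_v8_0 : coeff 0 (m.beta .v8) = -1
  b_vb_0 : coeff 0 (m.beta .vb) = 0
  b_x2_0 : coeff 0 (m.beta .x2) = χ / 8
  t_z1_0 : coeff 0 (m.tau .z1) = 0
  t_z1_1 : coeff 1 (m.tau .z1) = -(χ / 4)
  t_zl_0 : coeff 0 (m.tau .zl) = 0
  t_zl_1 : coeff 1 (m.tau .zl) = 0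
  t_w1_0 : coeff 0 (m.tau .w1) = -(χ / 8)
  t_wl_0 : coeff 0 (m.tau .wl) = 0
  t_v2_0 : coeff 0 (m.tau .v2) = 0
  t_vl_0 : coeff 0 (m.tau .vl) = 0
  t_v8_0 : coeff 0 (m.tau .v8) = 1
  t_vb_0 : coeff 0 (m.tau .vb) = 0
  t_x2_0 : coeff 0 (m.tau .x2) = 0

theorem rel_scalar {χ : ZMod p} (h2 : p ≠ 2) (h3 : p ≠ 3) (T : MidTab m χ) :
    (∀ j, coeff 0 (cB p 3 * m.phi .x2 j) = -(1 / 2) * coeff 0 (cB p 0 * m.phi .z1 j)
      - 1 / 4 * coeff 1 (cB p 0 * m.phi .z1 j) - 1 / 4 * coeff 1 (cB p 0 * m.phi .zl j)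
      + 1 / 2 * coeff 0 (cB p 1 * m.phi .w1 j) - coeff 1 (cB p 1 * m.phi .w1 j)
      - 1 / 2 * coeff 1 (cB p 1 * m.phi .wl j) + 3 / 8 * coeff 0 (cB p 1 * m.phi .wy j)
      + 1 / 4 * coeff 0 (cB p 2 * m.phi .v2 j) + 1 / 8 * coeff 0 (cB p 2 * m.phi .vl j)
      - χ / 16 * coeff 0 (cB p 2 * m.phi .v8 j) - 3 / 4 * coeff 0 (cB p 2 * m.phi .vb j))
    ∧ (∀ j, coeff 0 (cA p 3 * m.phi .x2 j) = -(1 / 2) * coeff 0 (cA p 0 * m.phi .z1 j)
      - 1 / 4 * coeff 1 (cA p 0 * m.phi .z1 j) - 1 / 4 * coeff 1 (cA p 0 * m.phi .zl j)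
      + 1 / 2 * coeff 0 (cA p 1 * m.phi .w1 j) - coeff 1 (cA p 1 * m.phi .w1 j)
      - 1 / 2 * coeff 1 (cA p 1 * m.phi .wl j) + 3 / 8 * coeff 0 (cA p 1 * m.phi .wy j)
      + 1 / 4 * coeff 0 (cA p 2 * m.phi .v2 j) + 1 / 8 * coeff 0 (cA p 2 * m.phi .vl j)
      - χ / 16 * coeff 0 (cA p 2 * m.phi .v8 j) - 3 / 4 * coeff 0 (cA p 2 * m.phi .vb j))
    ∧ (∀ l, coeff 0 (qs p m .x2 l) = -(1 / 2) * coeff 0 (qs p m .z1 l)
      - 1 / 4 * coeff 1 (qs p m .z1 l) - 1 / 4 * coeff 1 (qs p m .zl l)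
      + 1 / 2 * coeff 0 (qs p m .w1 l) - coeff 1 (qs p m .w1 l)
      - 1 / 2 * coeff 1 (qs p m .wl l) + 3 / 8 * coeff 0 (qs p m .wy l)
      + 1 / 4 * coeff 0 (qs p m .v2 l) + 1 / 8 * coeff 0 (qs p m .vl l)
      - χ / 16 * coeff 0 (qs p m .v8 l) - 3 / 4 * coeff 0 (qs p m .vb l)) := by
  have n2 : (2 : ZMod p) ≠ 0 := by
    intro h
    have h' : ((2 : ℕ) : ZMod p) = 0 := by exact_mod_cast h
    rw [ZMod.natCast_eq_zero_iff] at h'
    exact h2 ((Nat.prime_dvd_prime_iff_eq hp.out Nat.prime_two).1 h')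
  have n3 : (3 : ZMod p) ≠ 0 := by
    intro h
    have h' : ((3 : ℕ) : ZMod p) = 0 := by exact_mod_cast h
    rw [ZMod.natCast_eq_zero_iff] at h'
    exact h3 ((Nat.prime_dvd_prime_iff_eq hp.out Nat.prime_three).1 h')
  have n4 : (4 : ZMod p) ≠ 0 := by
    rw [show (4 : ZMod p) = 2 * 2 by norm_num]
    exact mul_ne_zero n2 n2
  have n8 : (8 : ZMod p) ≠ 0 := by
    rw [show (8 : ZMod p) = 2 * 4 by norm_num]
    exact mul_ne_zero n2 n4
  have n16 : (16 : ZMod p) ≠ 0 := by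
    rw [show (16 : ZMod p) = 4 * 4 by norm_num]
    exact mul_ne_zero n4 n4
  have n32 : (32 : ZMod p) ≠ 0 := by
    rw [show (32 : ZMod p) = 4 * 8 by norm_num]
    exact mul_ne_zero n4 n8
  obtain ⟨a00, a01, b00, b01, a10, a11, b10, b11, a20, b20, a30, b30⟩ := cAB_vals p
  obtain ⟨y00, y01, y10, y11, y20, y30⟩ := cY_vals p n2
  refine ⟨?_, ?_, ?_⟩
  · intro j
    simp only [c0_mul, c1_mul, a00, a01, b00, b01, a10, a11, b10, b11, a20, b20, a30, b30,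
      T.z1_0, T.z1_1, T.zl_0, T.zl_1, T.w1_0, T.w1_1, T.wl_0, T.wl_1, T.wy_0, T.v2_0, T.vl_0,
      T.v8_0, T.vb_0, T.x2_0]
    fin_cases j
    · simp
      field_simp
      ring
    · simp
      field_simp
      ring
    · simp
      field_simp
      ring
    · simp
      field_simp
      ring
    · simp
      field_simp
      ring
    · simp
      field_simp
      ring
  · intro j
    simp only [c0_mul, c1_mul, a00, a01, b00, b01, a10, a11, b10, b11, a20, b20, a30, b30,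
      T.z1_0, T.z1_1, T.zl_0, T.zl_1, T.w1_0, T.w1_1, T.wl_0, T.wl_1, T.wy_0, T.v2_0, T.vl_0,
      T.v8_0, T.vb_0, T.x2_0]
    fin_cases j
    · simp
      field_simp
      ring
    · simp
      field_simp
      ring
    · simp
      field_simp
      ring
    · simp
      field_simp
      ring
    · simp
      field_simp
      ring
    · simp
      field_simp
      ring
  · intro l
    fin_cases l
    · simp [qs, Gp.cusp, c0_mul, c1_mul, a00, a01, b00, b01, a10, a11, b10, b11, a20, b20, a30,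
        b30, T.b_z1_0, T.b_z1_1, T.b_zl_0, T.b_zl_1, T.b_w1_0, T.b_w1_1, T.b_wl_0, T.b_wl_1,
        T.b_wy_0, T.b_v2_0, T.b_vl_0, T.b_v8_0, T.b_vb_0, T.b_x2_0]
      field_simp
      ring
    · simp [qs, Gp.cusp, c0_mul, c1_mul, a00, a01, b00, b01, a10, a11, b10, b11, a20, b20, a30,
        b30, T.b_z1_0, T.b_z1_1, T.b_zl_0, T.b_zl_1, T.b_w1_0, T.b_w1_1, T.b_wl_0, T.b_wl_1,
        T.b_wy_0, T.b_v2_0, T.b_vl_0, T.b_v8_0, T.b_vb_0, T.b_x2_0]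
      field_simp
      ring
    · simp [qs, Gp.cusp, c0_mul, c1_mul, a00, a01, b00, b01, a10, a11, b10, b11, a20, b20, a30,
        b30, T.b_z1_0, T.b_z1_1, T.b_zl_0, T.b_zl_1, T.b_w1_0, T.b_w1_1, T.b_wl_0, T.b_wl_1,
        T.b_wy_0, T.b_v2_0, T.b_vl_0, T.b_v8_0, T.b_vb_0, T.b_x2_0]
      field_simp
      ring
    · simp [qs, Gp.cusp, c0_mul, c1_mul, y00, y01, y10, y11, y20, y30, T.t_z1_0, T.t_z1_1, T.t_zl_0, T.t_zl_1, T.t_w1_0, T.t_wl_0, T.t_v2_0,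
        T.t_vl_0, T.t_v8_0, T.t_vb_0, T.t_x2_0]
      field_simp
      ring

end

end Vale.Agent.P030.H392
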