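import Mathlib
import Vale.Agent.P030.T.Frame
import Vale.Agent.P030.H392.Form
import Vale.Agent.P030.H392.Mid
import Vale.Agent.P030.H392.MidRank
import Vale.Agent.P030.H392.MidTab

/-!
# P030, odd primes, middle range: the rank on the interval family
-/

set_option linter.unusedSectionVars false
set_option linter.unnecessarySimpa false
set_option linter.unusedSimpArgs false

open PowerSeries Module

namespace Vale.Agent.P030.H392

open Vale.Agent.P030.T

section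
variable {p : ℕ} [hp : Fact p.Prime] {D y M : ℕ} (m : MidDat p)

theorem comb_sum {ι V : Type*} [Fintype ι] [AddCommGroup V] [Module (ZMod p) V] (χ : ZMod p)
    (c1 c2 c3 c4 c5 c6 c7 c8 c9 c10 c11 : ι → ZMod p) (a : ι → V) :
    ∑ j, (-(1 / 2) * c1 j - 1 / 4 * c2 j - 1 / 4 * c3 j + 1 / 2 * c4 j - c5 j - 1 / 2 * c6 j
        + 3 / 8 * c7 j + 1 / 4 * c8 j + 1 / 8 * c9 j - χ / 16 * c10 j - 3 / 4 * c11 j) • a j
      = (-(1 / 2) : ZMod p) • ∑ j, c1 j • a j - (1 / 4 : ZMod p) • ∑ j, c2 j • a j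
        - (1 / 4 : ZMod p) • ∑ j, c3 j • a j + (1 / 2 : ZMod p) • ∑ j, c4 j • a j
        - ∑ j, c5 j • a j - (1 / 2 : ZMod p) • ∑ j, c6 j • a j
        + (3 / 8 : ZMod p) • ∑ j, c7 j • a j + (1 / 4 : ZMod p) • ∑ j, c8 j • a j
        + (1 / 8 : ZMod p) • ∑ j, c9 j • a j - (χ / 16) • ∑ j, c10 j • a j
        - (3 / 4 : ZMod p) • ∑ j, c11 j • a j := by
  simp only [Finset.smul_sum, ← Finset.sum_sub_distrib, ← Finset.sum_add_distrib]
  refine Finset.sum_congr rfl fun j _ => ?_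
  module

/-- the relation between the forms -/
theorem EE_rel {χ : ZMod p} (h2 : p ≠ 2) (h3 : p ≠ 3) (T : MidTab m χ) (γ : Gam p M) :
    EE p m M .x2 0 γ = (-(1 / 2) : ZMod p) • EE p m M .z1 0 γ
      - (1 / 4 : ZMod p) • EE p m M .z1 1 γ - (1 / 4 : ZMod p) • EE p m M .zl 1 γ
      + (1 / 2 : ZMod p) • EE p m M .w1 0 γ - EE p m M .w1 1 γ
      - (1 / 2 : ZMod p) • EE p m M .wl 1 γ + (3 / 8 : ZMod p) • EE p m M .wy 0 γ
      + (1 / 4 : ZMod p) • EE p m M .v2 0 γ + ((1 / 8 : ZMod p) • EE p m M .vl 0 γ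
      - (χ / 16) • EE p m M .v8 0 γ - (3 / 4 : ZMod p) • EE p m M .vb 0 γ) := by
  obtain ⟨hA, hB, hQ⟩ := rel_scalar m h2 h3 T
  have s1 := comb_sum χ (fun j => coeff 0 (cB p 0 * m.phi .z1 j))
    (fun j => coeff 1 (cB p 0 * m.phi .z1 j)) (fun j => coeff 1 (cB p 0 * m.phi .zl j))
    (fun j => coeff 0 (cB p 1 * m.phi .w1 j)) (fun j => coeff 1 (cB p 1 * m.phi .w1 j))
    (fun j => coeff 1 (cB p 1 * m.phi .wl j)) (fun j => coeff 0 (cB p 1 * m.phi .wy j))
    (fun j => coeff 0 (cB p 2 * m.phi .v2 j)) (fun j => coeff 0 (cB p 2 * m.phi .vl j))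
    (fun j => coeff 0 (cB p 2 * m.phi .v8 j)) (fun j => coeff 0 (cB p 2 * m.phi .vb j)) γ.1
  have s2 := comb_sum χ (fun j => coeff 0 (cA p 0 * m.phi .z1 j))
    (fun j => coeff 1 (cA p 0 * m.phi .z1 j)) (fun j => coeff 1 (cA p 0 * m.phi .zl j))
    (fun j => coeff 0 (cA p 1 * m.phi .w1 j)) (fun j => coeff 1 (cA p 1 * m.phi .w1 j))
    (fun j => coeff 1 (cA p 1 * m.phi .wl j)) (fun j => coeff 0 (cA p 1 * m.phi .wy j))
    (fun j => coeff 0 (cA p 2 * m.phi .v2 j)) (fun j => coeff 0 (cA p 2 * m.phi .vl j))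
    (fun j => coeff 0 (cA p 2 * m.phi .v8 j)) (fun j => coeff 0 (cA p 2 * m.phi .vb j)) γ.2.1
  have s3 := comb_sum χ (fun l => coeff 0 (qs p m .z1 l))
    (fun l => coeff 1 (qs p m .z1 l)) (fun l => coeff 1 (qs p m .zl l))
    (fun l => coeff 0 (qs p m .w1 l)) (fun l => coeff 1 (qs p m .w1 l))
    (fun l => coeff 1 (qs p m .wl l)) (fun l => coeff 0 (qs p m .wy l))
    (fun l => coeff 0 (qs p m .v2 l)) (fun l => coeff 0 (qs p m .vl l))
    (fun l => coeff 0 (qs p m .v8 l)) (fun l => coeff 0 (qs p m .vb l)) γ.2.2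
  have t1 := (Finset.sum_congr (s₁ := (Finset.univ : Finset (Fin 6))) rfl
    (f := fun j => coeff 0 (cB p 3 * m.phi .x2 j) • γ.1 j) fun j _ =>
      congrArg (fun c : ZMod p => c • γ.1 j) (hA j)).trans s1
  have t2 := (Finset.sum_congr (s₁ := (Finset.univ : Finset (Fin 6))) rfl
    (f := fun j => coeff 0 (cA p 3 * m.phi .x2 j) • γ.2.1 j) fun j _ =>
      congrArg (fun c : ZMod p => c • γ.2.1 j) (hB j)).trans s2
  have t3 := (Finset.sum_congr (s₁ := (Finset.univ : Finset (Fin 4))) rfl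
    (f := fun l => coeff 0 (qs p m .x2 l) • γ.2.2 l) fun l _ =>
      congrArg (fun c : ZMod p => c • γ.2.2 l) (hQ l)).trans s3
  simp only [EE_apply]
  have c3 : Gp.cusp .x2 = 3 := rfl
  have c0 : Gp.cusp .z1 = 0 := rfl
  have c0' : Gp.cusp .zl = 0 := rfl
  have c1 : Gp.cusp .w1 = 1 := rfl
  have c1' : Gp.cusp .wl = 1 := rfl
  have c1'' : Gp.cusp .wy = 1 := rfl
  have c2 : Gp.cusp .v2 = 2 := rfl
  have c2' : Gp.cusp .vl = 2 := rfl
  have c2'' : Gp.cusp .v8 = 2 := rfl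
  have c2''' : Gp.cusp .vb = 2 := rfl
  rw [c3, c0, c0', c1, c1', c1'', c2, c2', c2'', c2''']
  rw [t1, t2, t3]
  module

/-- the first exceptional order of a group -/
def lo (p y : ℕ) : Gp → ℕ
  | .z1 => 2 * p | .zl => 2 * p | .z8 => 0 | .zab => 0
  | .w1 => 2 * p + y | .wl => 2 * p + y | .wy => 2 * p + y | .w8 => y | .wab => y | .wf7 => y
  | .v2 => p | .vl => 0 | .v8 => 0 | .vb => p
  | .x2 => p | .xl => 0 | .x1 => 0

/-- the twelve forms -/
noncomputable def forms (χ : ZMod p) (M : ℕ) :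
    Fin 12 → (Gam p M →ₗ[ZMod p] Polynomial.degreeLT (ZMod p) M) :=
  ![EE p m M .z1 0, EE p m M .z1 1, EE p m M .zl 0, EE p m M .zl 1, EE p m M .w1 0,
    EE p m M .w1 1, EE p m M .wl 0, EE p m M .wl 1, EE p m M .wy 0, EE p m M .wy 1,
    EE p m M .v2 0, (1 / 8 : ZMod p) • EE p m M .vl 0 - (χ / 16) • EE p m M .v8 0
      - (3 / 4 : ZMod p) • EE p m M .vb 0]

/-- forms and exceptional columns -/
noncomputable def GG (χ : ZMod p) (N : Gp → ℕ) (hM : 1 ≤ M) (hD : y + M + p = D) :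
    Gam p M →ₗ[ZMod p] (Fin 12 → Polynomial.degreeLT (ZMod p) M)
      × ((g : Gp) → Fin (N g - lo p y g) → ZMod p) :=
  (LinearMap.pi fun i => forms m χ M i).prod (LinearMap.pi fun g => LinearMap.pi fun i =>
    (coeff (lo p y g + i)).comp ((ser p D m g).comp (io p hM hD)))

theorem term_zero (g : Gp) (F : (ZMod p)⟦X⟧) {i n : ℕ} {γ : Gam p M}
    (h : EE p m M g i γ = 0) : coeff n (F * ev p g.cusp (M - 1) (EE p m M g i γ).1) = 0 := by
  rw [h, Submodule.coe_zero, map_zero, mul_zero, map_zero]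

theorem cY_one : cY p 1 = -((C (1 / 2) + C (1 / 2)) * X) := by
  have a1 : cA p 1 = -(C (1 / 2) * (1 + X)) := rfl
  have b1 : cB p 1 = C (1 / 2) * (1 - X) := rfl
  rw [cY, a1, b1]
  ring

theorem coeff_Y_pow_mul (f : (ZMod p)⟦X⟧) {n : ℕ} (h : n < y) :
    coeff n (cY p 1 ^ y * f) = 0 := by
  have e : cY p 1 ^ y * f = X ^ y * ((-(C (1 / 2) + C (1 / 2))) ^ y * f) := by
    rw [cY_one, ← mul_assoc, ← mul_pow]
    congr 2
    ring
  rw [e, coeff_X_pow_mul', if_neg (by omega)]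

theorem ker_GG {χ : ZMod p} (h2 : p ≠ 2) (h3 : p ≠ 3) (T : MidTab m χ) {N : Gp → ℕ}
    (hM : 1 ≤ M) (hD : y + M + p = D) (hy : y ≤ p) (hvl : N .vb ≤ N .vl) (hv8 : N .vb ≤ N .v8)
    {γ : Gam p M} (h : GG m χ N hM hD γ = 0) (c : Cl) (hc : c.2 < N c.1) :
    coeff c.2 (ser p D m c.1 (io p hM hD γ)) = 0 := by
  have hpos := hp.out.pos
  have n2 : (2 : ZMod p) ≠ 0 := by
    intro h
    have h' : ((2 : ℕ) : ZMod p) = 0 := by exact_mod_cast h
    rw [ZMod.natCast_eq_zero_iff] at h'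
    exact h2 ((Nat.prime_dvd_prime_iff_eq hp.out Nat.prime_two).1 h')
  have n3 : (3 : ZMod p) ≠ 0 := by
    intro h
    have h' : ((3 : ℕ) : ZMod p) = 0 := by exact_mod_cast h
    rw [ZMod.natCast_eq_zero_iff] at h'
    exact h3 ((Nat.prime_dvd_prime_iff_eq hp.out Nat.prime_three).1 h')
  have n4 : (4 : ZMod p) ≠ 0 := by
    rw [show (4 : ZMod p) = 2 * 2 by norm_num]
    exact mul_ne_zero n2 n2
  have hf : ∀ i, forms m χ M i γ = 0 := fun i => congrFun (congrArg Prod.fst h) i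
  have hexc : ∀ (g : Gp) (k : ℕ), k < N g → lo p y g ≤ k →
      coeff k (ser p D m g (io p hM hD γ)) = 0 := by
    intro g k hk hl
    have h1 := congrFun (congrFun (congrArg Prod.snd h) g) ⟨k - lo p y g, by omega⟩
    have h2 : coeff (lo p y g + (k - lo p y g)) (ser p D m g (io p hM hD γ)) = 0 := h1
    rwa [Nat.add_sub_cancel' hl] at h2
  have e0 : EE p m M .z1 0 γ = 0 := hf 0
  have e1 : EE p m M .z1 1 γ = 0 := hf 1
  have e2 : EE p m M .zl 0 γ = 0 := hf 2
  have e3 : EE p m M .zl 1 γ = 0 := hf 3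
  have e4 : EE p m M .w1 0 γ = 0 := hf 4
  have e5 : EE p m M .w1 1 γ = 0 := hf 5
  have e6 : EE p m M .wl 0 γ = 0 := hf 6
  have e7 : EE p m M .wl 1 γ = 0 := hf 7
  have e8 : EE p m M .wy 0 γ = 0 := hf 8
  have e9 : EE p m M .wy 1 γ = 0 := hf 9
  have e10 : EE p m M .v2 0 γ = 0 := hf 10
  have e11 : (1 / 8 : ZMod p) • EE p m M .vl 0 γ - (χ / 16) • EE p m M .v8 0 γ
      - (3 / 4 : ZMod p) • EE p m M .vb 0 γ = 0 := hf 11
  obtain ⟨g, k⟩ := c
  change coeff k (ser p D m g (io p hM hD γ)) = 0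
  change k < N g at hc
  by_cases hl : lo p y g ≤ k
  · exact hexc g k hc hl
  rw [not_le] at hl
  -- small orders
  have small : ∀ g', k < p → coeff k (ser p D m g' (io p hM hD γ))
      = coeff k (cY p g'.cusp ^ y * ev p g'.cusp (M - 1) (EE p m M g' 0 γ).1) := by
    intro g' hk
    rw [coeff_ser_io, Nat.div_eq_of_lt hk, zero_add, Finset.sum_range_one, mul_zero,
      Nat.sub_zero]
  have two : ∀ g', g'.cusp = 0 → EE p m M g' 0 γ = 0 → EE p m M g' 1 γ = 0 → k < 2 * p →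
      coeff k (ser p D m g' (io p hM hD γ)) = 0 := by
    intro g' _ h0 h1 hk
    rw [coeff_ser_io]
    refine Finset.sum_eq_zero fun i hi => ?_
    rw [Finset.mem_range] at hi
    have hi2 : k / p < 2 := (Nat.div_lt_iff_lt_mul hpos).2 hk
    obtain rfl | rfl : i = 0 ∨ i = 1 := by omega
    · exact term_zero m g' _ h0
    · exact term_zero m g' _ h1
  have three : ∀ g', g'.cusp = 1 → EE p m M g' 0 γ = 0 → EE p m M g' 1 γ = 0 →
      k < 2 * p + y → coeff k (ser p D m g' (io p hM hD γ)) = 0 := by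
    intro g' hg' h0 h1 hk
    rw [coeff_ser_io]
    refine Finset.sum_eq_zero fun i hi => ?_
    rw [Finset.mem_range] at hi
    have hi2 : k / p < 3 := (Nat.div_lt_iff_lt_mul hpos).2 (by omega)
    obtain rfl | rfl | rfl : i = 0 ∨ i = 1 ∨ i = 2 := by omega
    · exact term_zero m g' _ h0
    · exact term_zero m g' _ h1
    · have h2p : 2 * p ≤ k := (Nat.le_div_iff_mul_le hpos).1 (by omega)
      rw [hg']
      exact coeff_Y_pow_mul _ (by omega)
  have wsm : ∀ g', g'.cusp = 1 → k < y → coeff k (ser p D m g' (io p hM hD γ)) = 0 := by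
    intro g' hg' hk
    rw [small g' (by omega), hg']
    exact coeff_Y_pow_mul _ hk
  cases g
  · exact two _ rfl e0 e1 hl
  · exact two _ rfl e2 e3 hl
  · exact absurd hl (Nat.not_lt_zero _)
  · exact absurd hl (Nat.not_lt_zero _)
  · exact three _ rfl e4 e5 hl
  · exact three _ rfl e6 e7 hl
  · exact three _ rfl e8 e9 hl
  · exact wsm _ rfl hl
  · exact wsm _ rfl hl
  · exact wsm _ rfl hl
  · rw [small _ hl]
    exact term_zero m _ _ e10
  · exact absurd hl (Nat.not_lt_zero _)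
  · exact absurd hl (Nat.not_lt_zero _)
  · -- vb
    have hk : k < p := hl
    have a1 := hexc .vl k (by omega) (Nat.zero_le _)
    have a2 := hexc .v8 k (by omega) (Nat.zero_le _)
    rw [small _ hk] at a1 a2 ⊢
    have c1 : Gp.cusp .vl = 2 := rfl
    have c2 : Gp.cusp .v8 = 2 := rfl
    have c3 : Gp.cusp .vb = 2 := rfl
    rw [c1] at a1
    rw [c2] at a2
    rw [c3]
    have a3 : coeff k (cY p 2 ^ y * ev p 2 (M - 1) ((1 / 8 : ZMod p) • EE p m M .vl 0 γ
        - (χ / 16) • EE p m M .v8 0 γ - (3 / 4 : ZMod p) • EE p m M .vb 0 γ).1) = 0 := by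
      rw [e11, Submodule.coe_zero, map_zero, mul_zero, map_zero]
    have a4 : ((1 / 8 : ZMod p) • EE p m M .vl 0 γ
        - (χ / 16) • EE p m M .v8 0 γ - (3 / 4 : ZMod p) • EE p m M .vb 0 γ).1
        = (1 / 8 : ZMod p) • (EE p m M .vl 0 γ).1
        - (χ / 16) • (EE p m M .v8 0 γ).1 - (3 / 4 : ZMod p) • (EE p m M .vb 0 γ).1 := rfl
    rw [a4, map_sub, map_sub, map_smul, map_smul, map_smul, mul_sub, mul_sub, mul_smul_comm,
      mul_smul_comm, mul_smul_comm, map_sub, map_sub, map_smul, map_smul, map_smul, a1, a2,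
      smul_zero, smul_zero, sub_zero, zero_sub, neg_eq_zero, smul_eq_mul] at a3
    exact (mul_eq_zero.1 a3).resolve_left (div_ne_zero n3 n4)
  · -- x2
    rw [small _ hl]
    apply term_zero
    rw [EE_rel m h2 h3 T γ, e0, e1, e3, e4, e5, e7, e8, e10, e11]
    simp
  · exact absurd hl (Nat.not_lt_zero _)
  · exact absurd hl (Nat.not_lt_zero _)

/-- **the rank on the interval family** -/
theorem finrank_map_io_le {χ : ZMod p} (h2 : p ≠ 2) (h3 : p ≠ 3) (T : MidTab m χ) {N : Gp → ℕ}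
    (hM : 1 ≤ M) (hD : y + M + p = D) (hy : y ≤ p) (hvl : N .vb ≤ N .vl) (hv8 : N .vb ≤ N .v8)
    (TR : (Cl → ZMod p) →ₗ[ZMod p] (Cl → ZMod p))
    (hTR : ∀ f, (∀ c : Cl, c.2 < N c.1 → f c = 0) → TR f = 0) :
    finrank (ZMod p) ((LinearMap.range (io p hM hD)).map (TR.comp (Lam p D m)))
      ≤ 12 * M + ∑ g : Gp, (N g - lo p y g) := by
  set L := (TR.comp (Lam p D m)).comp (io p hM hD) with hL
  have e1 : (LinearMap.range (io p hM hD)).map (TR.comp (Lam p D m)) = LinearMap.range L := by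
    rw [hL, LinearMap.range_comp]
  rw [e1]
  have h4 : LinearMap.ker (GG m χ N hM hD) ≤ LinearMap.ker L := by
    intro γ hγ
    rw [LinearMap.mem_ker] at hγ ⊢
    exact hTR _ fun c hc => ker_GG m h2 h3 T hM hD hy hvl hv8 hγ c hc
  have h5 := LinearMap.finrank_range_add_finrank_ker L
  have h6 := LinearMap.finrank_range_add_finrank_ker (GG m χ N hM hD)
  have h7 := Submodule.finrank_mono h4
  have h8 : finrank (ZMod p) (LinearMap.range (GG m χ N hM hD))
      ≤ 12 * M + ∑ g : Gp, (N g - lo p y g) := by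
    refine (Submodule.finrank_le _).trans ?_
    rw [Module.finrank_prod, Module.finrank_pi_fintype, Module.finrank_pi_fintype]
    simp only [finrank_degreeLT, Finset.sum_const, Finset.card_univ, Fintype.card_fin,
      smul_eq_mul, Module.finrank_fintype_fun_eq_card]
    exact le_rfl
  omega

end

end Vale.Agent.P030.H392
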