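import Mathlib
import Vale.Agent.P030.H392.MidCount
import Vale.Agent.P030.H678.Ent
import Vale.Agent.P030.H792.LocMid

/-!
# P030, odd primes, middle range: the bound at one prime
-/

set_option linter.unusedSectionVars false
set_option linter.unnecessarySimpa false
set_option linter.unusedSimpArgs false

open Finset Module

namespace Vale.Agent.P030.H392

open Vale.Agent.P030.T Vale.Agent.P030.H792

section
variable {p : ℕ} [hp : Fact p.Prime]

/-- the reduced entries of the Frobenius lattice -/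
noncomputable def entR (p : ℕ) [Fact p.Prime] (D : ℕ) (x : ℚ) (r : Fin D × Fin 8) (c : Cl) : ZMod p :=
  ((latRow p D wr8 1 2 H678.hK x r c * (p : ℚ) ^ (-H678.wg c.1) : ℚ) : ZMod p)

/-- **the interval family at one prime** -/
theorem le_val_mid {P : Par} {c0 s : ℕ} {x : ℚ} {σ : Fin (P.D0 * s) × Fin 8 → Cl}
    (hσ : Adm P c0 s σ) (hdet : (Mx (P.D0 * s) x σ).det ≠ 0) (h2 : p ≠ 2) (h3 : p ≠ 3)
    (hx : padicNorm p x ≤ 1) (hN : ∀ g, P.ht g * s + c0 + 1 ≤ p ^ 2) {m : MidDat p}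
    (H : MidHyp p (P.D0 * s) m (fun g => P.ht g * s + c0) (entR p (P.D0 * s) x))
    {χ : ZMod p} (T : MidTab m χ) {y M : ℕ} (hD : y + M + p = P.D0 * s) (hy : y ≤ p)
    (hMp : M ≤ p) (hvl : P.ht .vb ≤ P.ht .vl) (hv8 : P.ht .vb ≤ P.ht .v8) :
    ∑ c, H678.wg (σ c).1
        + (4 * (M : ℤ) - ∑ g : Gp, ((P.ht g * s + c0 - lo p y g : ℕ) : ℤ) - 1)
        - latIdx p (P.D0 * s) wr8 1 2 ≤ padicValRat p (Mx (P.D0 * s) x σ).det := by
  have hk : ∀ g k, k < P.ht g * s + c0 → k + 2 ≤ p ^ 2 := fun g k h => by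
    have := hN g; omega
  have hint : ∀ c : Cl, c.2 < P.ht c.1 * s + c0 → ∀ r,
      padicNorm p (latRow p (P.D0 * s) wr8 1 2 H678.hK x r c) ≤ (p : ℚ) ^ (-H678.wg c.1) :=
    fun c hc r => latRow_le (N := fun g => P.ht g * s + c0) hx rfl
      (by intro g; cases g <;> decide)
      (fun g k i j h _ => H678.O2_ent0 h2 h3 (hk g k h) g i j)
      (fun g k i j _ _ => H678.O2_ent1 h2 k g i j)
      (fun g k a h ha => H678.O1_ent0 h2 ha (hk g k h) g)
      (fun g k a h ha => H678.O1_ent1 h2 ha (hk g k h) g) c hc r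
  have hsum0 : 0 ≤ ∑ g : Gp, ((P.ht g * s + c0 - lo p y g : ℕ) : ℤ) :=
    Finset.sum_nonneg fun g _ => Nat.cast_nonneg _
  rcases Nat.eq_zero_or_pos M with hM0 | hM
  · have h4 := le_val_of_lattice (p := p) hσ hdet wr8 1 2 H678.hK H678.hK_zero
      (fun c => H678.wg c.1) hint
    rw [hM0]
    push_cast at h4 hsum0 ⊢
    linarith
  · let Psi : (Fin (P.D0 * s) × Fin 8 → ZMod p) →ₗ[ZMod p] RR p (P.D0 * s) :=
      Fintype.linearCombination (ZMod p) (rho p (P.D0 * s) m)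
    have h5 := le_val_of_comp (p := p) hσ hdet wr8 1 2 H678.hK H678.hK_zero
      (fun c => H678.wg c.1) hint Psi (Lam p (P.D0 * s) m) (by
        intro r c hc
        have h6 : Psi (Pi.single r 1) = rho p (P.D0 * s) m r := by
          change Fintype.linearCombination (ZMod p) (rho p (P.D0 * s) m) (Pi.single r 1) = _
          rw [Fintype.linearCombination_apply_single, one_smul]
        rw [h6]
        exact ent_eq_Lam p (P.D0 * s) m H r c hc) (LinearMap.range (io p hM hD))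
    have h7 := finrank_range_io p hM hD hMp
    have h8 := finrank_RR p (P.D0 * s) (by omega)
    have h9 := finrank_map_io_le m h2 h3 T (N := fun g => P.ht g * s + c0) hM hD hy
      (by
        have := Nat.mul_le_mul_right s hvl
        change P.ht .vb * s + c0 ≤ P.ht .vl * s + c0
        omega)
      (by
        have := Nat.mul_le_mul_right s hv8
        change P.ht .vb * s + c0 ≤ P.ht .v8 * s + c0
        omega) (tr p P c0 s) (by
        intro f hf
        ext c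
        rw [tr_apply]
        split_ifs with hc
        · exact hf c hc
        · rfl)
    rw [h7, h8] at h5
    have h9' : (finrank (ZMod p) ((LinearMap.range (io p hM hD)).map
        ((tr p P c0 s).comp (Lam p (P.D0 * s) m))) : ℤ)
        ≤ 12 * (M : ℤ) + ∑ g : Gp, ((P.ht g * s + c0 - lo p y g : ℕ) : ℤ) := by
      have := h9
      exact_mod_cast this
    push_cast at h5 h9' ⊢
    linarith

end

/-- the input of the count, at one prime -/
def MidIn (c0 : ℕ) : Prop :=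
  ∀ (p : ℕ) [Fact p.Prime], 5 ≤ p → ∀ (s : ℕ) (x : ℚ), padicNorm p x ≤ 1 → p ≤ 27 * s →
    12 * s + c0 ≤ p → 32 * s + c0 + 2 ≤ 3 * p → 32 * s + c0 + 2 ≤ p ^ 2 →
    ∃ (m : MidDat p) (χ : ZMod p),
      MidHyp p (H579.parA.D0 * s) m (fun g => H579.parA.ht g * s + c0)
        (entR p (H579.parA.D0 * s) x) ∧ MidTab m χ

/-- **the class gain of design A at one prime** (`y` arbitrary with `27 s ≤ 2 p + y`) -/
theorem count_A {c0 : ℕ} (hin : MidIn c0) (p : ℕ) [Fact p.Prime] (hp5 : 5 ≤ p) (s y : ℕ)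
    (x : ℚ) (σ : Fin (H579.parA.D0 * s) × Fin 8 → Cl) (hσ : Adm H579.parA c0 s σ)
    (hdet : (Mx (H579.parA.D0 * s) x σ).det ≠ 0) (hx : padicNorm p x ≤ 1) (h1 : p ≤ 27 * s)
    (h2 : 27 * s ≤ 2 * p + y) (h3 : 32 * s + c0 + 2 ≤ 3 * p) (h4 : y + p ≤ 27 * s)
    (h5 : 32 * s + c0 + 2 ≤ p ^ 2) (h6 : 12 * s + c0 ≤ p) (h7 : y ≤ p) :
    ∑ c, H678.wg (σ c).1 + (gainA s p y - (17 * c0 + 1)) - latIdx p (H579.parA.D0 * s) wr8 1 2
      ≤ padicValRat p (Mx (H579.parA.D0 * s) x σ).det := by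
  obtain ⟨m, χ, H, T⟩ := hin p hp5 s x hx h1 h6 h3 h5
  have hD0 : H579.parA.D0 = 27 := rfl
  have hN : ∀ g, H579.parA.ht g * s + c0 + 1 ≤ p ^ 2 := by
    intro g
    have h8 : H579.parA.ht g ≤ 32 := by cases g <;> decide
    have h9 := Nat.mul_le_mul_right s h8
    omega
  have h10 := le_val_mid hσ hdet (by omega) (by omega) hx hN H T (y := y)
    (M := 27 * s - p - y) (by rw [hD0]; omega) h7 (by omega) le_rfl le_rfl
  have h11 : ∑ g : Gp, ((H579.parA.ht g * s + c0 - lo p y g : ℕ) : ℤ)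
      ≤ 2 * ((32 * s - 2 * p : ℕ) : ℤ) + 2 * (4 * s : ℕ) + 3 * ((32 * s - 2 * p - y : ℕ) : ℤ)
        + 3 * ((2 * s - y : ℕ) : ℤ) + 2 * (4 * s : ℕ) + 2 * (4 * s : ℕ) + 17 * c0 := by
    rw [H579.sum_Gp]
    simp only [lo, H579.parA]
    omega
  unfold gainA
  push_cast at h10 h11 ⊢
  linarith

end Vale.Agent.P030.H392
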