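import Mathlib
import Vale.Agent.P030.T.Defs
import Vale.Agent.P030.H392.VN
import Vale.Agent.P030.H392.Wr
import Vale.Agent.P030.H392.Ser

/-!
# P030, odd primes: integrality of the Frobenius rows (O1)
-/

set_option linter.unusedSectionVars false
set_option linter.unnecessarySimpa false

open PowerSeries

namespace Vale.Agent.P030.H392

open Vale.Agent.P030.T

/-! ### the building blocks at the cusps -/

theorem geo_spec : (1 - X) * geo = (1 : ℚ⟦X⟧) := by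
  ext n
  rw [sub_mul, one_mul, map_sub, geo, coeff_mk]
  rcases n with _ | n
  · simp
  · rw [coeff_succ_X_mul, coeff_mk, coeff_one, if_neg (by omega)]
    ring

theorem geo2_spec : (1 - X ^ 2) * geo2 = (1 : ℚ⟦X⟧) := by
  ext n
  rw [sub_mul, one_mul, map_sub, geo2, coeff_mk]
  rcases n with _ | _ | n
  · rw [coeff_X_pow_mul']
    simp
  · rw [coeff_X_pow_mul']
    simp
  · have h1 : coeff (n + 2) (1 : ℚ⟦X⟧) = 0 := by
      rw [coeff_one, if_neg (by omega)]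
    rw [show n + 1 + 1 = n + 2 from rfl, coeff_X_pow_mul, coeff_mk, h1]
    have : Even (n + 2) ↔ Even n := by
      constructor
      · exact fun hh => (Nat.even_add.1 hh).2 even_two
      · exact fun hh => hh.add even_two
    by_cases h : Even n
    · rw [if_pos (this.2 h), if_pos h, sub_self]
    · rw [if_neg (fun hh => h (this.1 hh)), if_neg h, sub_self]

theorem geo_pow_spec (n : ℕ) : (1 - X) ^ n * geo ^ n = (1 : ℚ⟦X⟧) := by
  rw [← mul_pow, geo_spec, one_pow]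

theorem dd_X_pow (q : ℕ) : dd (X ^ q : ℚ⟦X⟧) = C (q : ℚ) * X ^ (q - 1) := by
  ext n
  rw [coeff_dd, coeff_C_mul, coeff_X_pow, coeff_X_pow]
  rcases q with _ | q
  · simp
  · rw [Nat.add_sub_cancel]
    by_cases h : n = q
    · rw [if_pos (by omega), if_pos h, h]
      push_cast
      ring
    · rw [if_neg (by omega), if_neg h]
      ring

theorem X_dd_X_pow (q : ℕ) : X * dd (X ^ q : ℚ⟦X⟧) = C (q : ℚ) * X ^ q := by
  rw [dd_X_pow]
  rcases q with _ | q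
  · simp
  · rw [Nat.add_sub_cancel, pow_succ]
    ring

theorem MM_X_pow (q : ℕ) : MM (X ^ q : ℚ⟦X⟧)
    = C 1 * (C ((q : ℚ) ^ 2) * X ^ (q - 1) - C (((q : ℚ) + 1) ^ 2) * X ^ (q + 1)) := by
  have h1 : dd (th (X ^ q : ℚ⟦X⟧)) = C ((q : ℚ) ^ 2) * X ^ (q - 1) := by
    rw [th_eq, X_dd_X_pow, dd_mul, dd_C, dd_X_pow, zero_mul, add_zero, pow_two, map_mul]
    ring
  have h2 : dd (X ^ 2 * th (X ^ q : ℚ⟦X⟧)) = C ((q : ℚ) * (q + 2)) * X ^ (q + 1) := by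
    rw [th_eq, X_dd_X_pow, show (X : ℚ⟦X⟧) ^ 2 * (C (q : ℚ) * X ^ q)
      = C (q : ℚ) * X ^ (q + 2) by ring, dd_mul, dd_C, dd_X_pow, zero_mul, add_zero, map_mul,
      show q + 2 - 1 = q + 1 from rfl]
    push_cast
    ring
  have h3 : C (((q : ℚ) + 1) ^ 2) = C ((q : ℚ) * (q + 2)) + (1 : ℚ⟦X⟧) := by
    rw [← map_one (C (R := ℚ)), ← map_add]
    ring_nf
  rw [MM_eq, h1, h2, h3, map_one]
  ring

/-- the functions `u^q / (1 - t)` at `c1`, `c3` -/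
noncomputable def Aq (q : ℕ) : ℚ⟦X⟧ := (1 + X) ^ q * geo ^ (q + 1)

theorem ode_add (q : ℕ) : (1 + X) * dd ((1 + X : ℚ⟦X⟧) ^ q) = C (q : ℚ) * (1 + X) ^ q := by
  induction q with
  | zero => simp [dd_one]
  | succ q ih =>
    rw [pow_succ, dd_mul, dd_add, dd_one, dd_X, mul_add, ← mul_assoc (1 + X) (dd _), ih]
    push_cast
    rw [map_add, map_one]
    ring

theorem ode_geo1 : (1 - X) * dd geo = geo := by
  have h := congrArg dd geo_spec
  rw [dd_mul, dd_sub, dd_one, dd_X] at h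
  linear_combination h

theorem ode_geo (q : ℕ) : (1 - X) * dd (geo ^ q) = C (q : ℚ) * geo ^ q := by
  induction q with
  | zero => simp [dd_one]
  | succ q ih =>
    rw [pow_succ, dd_mul, mul_add, ← mul_assoc (1 - X) (dd _), ih]
    push_cast
    rw [map_add, map_one]
    linear_combination (geo ^ q) * ode_geo1

theorem Aq_ode (q : ℕ) : (1 - X ^ 2) * dd (Aq q) = (C (2 * (q : ℚ) + 1) + X) * Aq q := by
  have h1 := ode_add q
  have h2 := ode_geo (q + 1)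
  push_cast at h2
  rw [Aq, dd_mul]
  simp only [map_add, map_mul, map_one] at h1 h2 ⊢
  have h3 : (C (2 : ℚ) : ℚ⟦X⟧) = 2 := map_ofNat (C (R := ℚ)) 2
  rw [h3]
  linear_combination ((1 - X) * geo ^ (q + 1)) * h1 + ((1 + X) * (1 + X) ^ q) * h2

theorem Aq_succ (q : ℕ) : (1 - X) * Aq (q + 1) = (1 + X) * Aq q := by
  rw [Aq, Aq, pow_succ (1 + X) q, pow_succ geo (q + 1)]
  linear_combination ((1 + X) ^ q * (1 + X) * geo ^ (q + 1)) * geo_spec

theorem one_sub_sq_ne : (1 - X ^ 2 : ℚ⟦X⟧) ≠ 0 := by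
  intro h
  have := geo2_spec
  rw [h, zero_mul] at this
  exact zero_ne_one this

theorem MM_Aq (q : ℕ) : MM (Aq q)
    = C (-1) * (C ((q : ℚ) ^ 2) * Aq (q - 1) - C (((q : ℚ) + 1) ^ 2) * Aq (q + 1)) := by
  apply mul_left_cancel₀ one_sub_sq_ne
  have hode := Aq_ode q
  have h3 : (C (2 : ℚ) : ℚ⟦X⟧) = 2 := map_ofNat (C (R := ℚ)) 2
  simp only [map_add, map_mul, map_one, h3] at hode
  have e1 : X * (1 - X ^ 2) * dd (Aq q) = (X * (2 * C (q : ℚ) + 1 + X)) * Aq q := by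
    linear_combination X * hode
  have e2 : dd (X * (2 * C (q : ℚ) + 1 + X)) = 2 * C (q : ℚ) + 1 + 2 * X := by
    rw [show (2 : ℚ⟦X⟧) * C (q : ℚ) = C (2 * (q : ℚ)) by rw [map_mul, h3], dd_mul, dd_add, dd_add,
      dd_X, dd_one, dd_C]
    ring
  have e3 : (1 - X) * Aq (q + 1) = (1 + X) * Aq q := Aq_succ q
  have e4 : C ((q : ℚ) ^ 2) * ((1 + X) * Aq (q - 1)) = C ((q : ℚ) ^ 2) * ((1 - X) * Aq q) := by
    rcases q with _ | q
    · simp
    · rw [Nat.add_sub_cancel, Aq_succ]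
  have e5 : (C ((q : ℚ) ^ 2) : ℚ⟦X⟧) = C (q : ℚ) ^ 2 := map_pow _ _ _
  have e6 : (C (((q : ℚ) + 1) ^ 2) : ℚ⟦X⟧) = (C (q : ℚ) + 1) ^ 2 := by
    rw [map_pow, map_add, map_one]
  have e7 : (C (-1 : ℚ) : ℚ⟦X⟧) = -1 := by rw [map_neg, map_one]
  rw [MM, e1, dd_mul, e2, e6, e7]
  rw [e5] at e4 ⊢
  linear_combination (X * (2 * C (q : ℚ) + 1 + X)) * hode
    + (1 - X) * e4 - ((C (q : ℚ) + 1) ^ 2 * (1 + X)) * e3

theorem hht_X_pow (p : ℕ) : hht p (fun q => X ^ q) = X * dd (hh p fun q => X ^ q) := by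
  rw [hht, hh, dd_sum, Finset.mul_sum]
  refine Finset.sum_congr rfl fun q _ => ?_
  rw [dd_mul, dd_C, zero_mul, add_zero, map_mul]
  linear_combination (-C (hK q)) * X_dd_X_pow q

theorem hht_Aq (p : ℕ) :
    C 2 * hht p Aq = (1 - X ^ 2) * dd (hh p Aq) - (1 + X) * hh p Aq := by
  rw [hht, hh, dd_sum, Finset.mul_sum, Finset.mul_sum, Finset.mul_sum, ← Finset.sum_sub_distrib]
  refine Finset.sum_congr rfl fun q _ => ?_
  have hode := Aq_ode q
  rw [dd_mul, dd_C, zero_mul, add_zero]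
  simp only [map_mul, map_add, map_one] at hode ⊢
  linear_combination (-C (hK q)) * hode

/-! ### valuations -/

section
variable {p : ℕ} [hp : Fact p.Prime]

theorem VN.Aq {N : ℕ} (q : ℕ) : VN p 0 N (Aq q) :=
  (VN.one_add_X.pow q).imul (VN.geo.pow (q + 1))

theorem VN.C_hK {N : ℕ} (h2 : p ≠ 2) (q : ℕ) : VN p 0 N (PowerSeries.C (hK q)) :=
  VN.C (by simpa using norm_hK h2 q)

theorem VN.hh {N : ℕ} (h2 : p ≠ 2) {A : ℕ → ℚ⟦X⟧} (hA : ∀ q, VN p 0 N (A q)) :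
    VN p 0 N (hh p A) :=
  VN.sum _ fun q _ => (VN.C_hK h2 q).imul (hA q)

theorem not_even_p (h2 : p ≠ 2) : ¬ Even p := by
  rcases hp.out.eq_two_or_odd' with h | h
  · exact absurd h h2
  · exact Nat.not_even_iff_odd.2 h

/-- the `K`-equation holds for the truncated series up to `p²` -/
theorem VN.MM_hh {N : ℕ} (h2 : p ≠ 2) {ε : ℚ} (hε : padicNorm p ε ≤ 1) {A : ℕ → ℚ⟦X⟧}
    (hA : ∀ q, VN p 0 N (A q))
    (hM : ∀ q, MM (A q)
      = PowerSeries.C ε * (PowerSeries.C ((q : ℚ) ^ 2) * A (q - 1)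
        - PowerSeries.C (((q : ℚ) + 1) ^ 2) * A (q + 1))) :
    VN p 2 N (MM (Vale.Agent.P030.H392.hh p A)) := by
  rw [Vale.Agent.P030.H392.MM_hh (not_even_p h2) ε A hM]
  have h := (VN.C (p := p) (e := 2) (N := N) (q := -ε * (p : ℚ) ^ 2 * hK (p - 1)) ?_).mul (hA p)
  · rwa [add_zero] at h
  · rw [padicNorm.mul, padicNorm.mul, padicNorm.neg, norm_pow, padicNorm.padicNorm_p_of_prime]
    have h1 := norm_hK h2 (p - 1)
    have h3 : (0 : ℚ) ≤ ((p : ℚ)⁻¹) ^ 2 := by positivity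
    calc _ ≤ 1 * ((p : ℚ)⁻¹) ^ 2 * 1 :=
          mul_le_mul (mul_le_mul_of_nonneg_right hε h3) h1 (padicNorm.nonneg _) (by positivity)
      _ = (p : ℚ) ^ (-2 : ℤ) := by
          rw [one_mul, mul_one, zpow_neg, inv_pow]
          norm_cast

theorem Om_VN {e : ℤ} {h f : ℚ⟦X⟧} (H : VN p e (p ^ 2 - 1) (h * MM f - f * MM h)) :
    VN p (e - 1) (p ^ 2) (X * (1 - X ^ 2) * (h * dd f - dd h * f)) := by
  have hpos : 0 < p ^ 2 := pow_pos hp.out.pos 2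
  have := VN.of_dd (p := p) (e := e) (N := p ^ 2 - 1)
    (f := X * (1 - X ^ 2) * (h * dd f - dd h * f)) (by omega)
    (by
      rw [mul_assoc, coeff_zero_X_mul, padicNorm.zero]
      exact zpow_nonneg' _)
    (by
      rw [wronskian]
      exact H)
  rwa [Nat.sub_add_cancel hpos] at this

theorem Wr_VN {e : ℤ} {h f : ℚ⟦X⟧} (H : VN p e (p ^ 2 - 1) (h * MM f - f * MM h)) :
    VN p (e - 1) (p ^ 2 - 1) ((1 - X ^ 2) * (h * dd f - dd h * f)) := by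
  intro m hm
  have := Om_VN H (m + 1) (by omega)
  rwa [mul_assoc, coeff_succ_X_mul] at this

/-- the row at `c0` -/
theorem VN_row0 {e : ℤ} {f U : ℚ⟦X⟧} (hU : VN p 0 (p ^ 2 - 1) U)
    (H : VN p e (p ^ 2 - 1) (hh p (fun q => X ^ q) * MM f - f * MM (hh p fun q => X ^ q))) :
    VN p (e - 1) (p ^ 2 - 1)
      (U * (hh p (fun q => X ^ q) * ((1 - X) * th f)
        - hht p (fun q => X ^ q) * ((1 - X) * f))) := by
  have h1 := (Om_VN H).mono le_rfl (Nat.sub_le (p ^ 2) 1)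
  have h2 := (hU.imul (VN.one_sub_X.imul VN.geo2)).imul h1
  have e1 : U * (hh p (fun q => X ^ q) * ((1 - X) * th f)
        - hht p (fun q => X ^ q) * ((1 - X) * f))
      = U * ((1 - X) * geo2) * (X * (1 - X ^ 2)
        * (hh p (fun q => X ^ q) * dd f - dd (hh p fun q => X ^ q) * f)) := by
    rw [hht_X_pow, th_eq]
    linear_combination (-(U * (1 - X) * X
      * (hh p (fun q => X ^ q) * dd f - dd (hh p fun q => X ^ q) * f))) * geo2_spec
  rw [e1]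
  exact h2

theorem tw_eq (f : ℚ⟦X⟧) : C 2 * tw f = (1 - X ^ 2) * dd f - (1 + X) * f := by
  have h3 : (C (1 / 2 : ℚ) : ℚ⟦X⟧) * C 2 = 1 := by
    rw [← map_mul, show (1 / 2 : ℚ) * 2 = 1 by norm_num, map_one]
  rw [tw, T.sc, dd_mul, dd_sub, dd_one, dd_X]
  linear_combination ((1 + X) * ((1 - X) * dd f + (0 - 1) * f)) * h3

/-- the row at `c1` -/
theorem row1_eq (f : ℚ⟦X⟧) : hh p Aq * tw f - hht p Aq * f
    = C (1 / 2) * ((1 - X ^ 2) * (hh p Aq * dd f - dd (hh p Aq) * f)) := by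
  have h3 : (C (1 / 2 : ℚ) : ℚ⟦X⟧) * C 2 = 1 := by
    rw [← map_mul, show (1 / 2 : ℚ) * 2 = 1 by norm_num, map_one]
  have h4 := tw_eq f
  have h5 := hht_Aq p
  linear_combination (-(hh p Aq * tw f - hht p Aq * f)) * h3 + (C (1 / 2) * hh p Aq) * h4
    - (C (1 / 2) * f) * h5

theorem VN_row1 {e : ℤ} {f U : ℚ⟦X⟧} (h2 : p ≠ 2) (hU : VN p 0 (p ^ 2 - 1) U)
    (H : VN p e (p ^ 2 - 1) (hh p Aq * MM f - f * MM (hh p Aq))) :
    VN p (e - 1) (p ^ 2 - 1) (U * (hh p Aq * tw f - hht p Aq * f)) := by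
  rw [row1_eq]
  exact hU.imul (VN.imul (VN.C (by rw [norm_half h2]; simp)) (Wr_VN H))

/-! ### the hypotheses `H` -/

theorem hX_VN (h2 : p ≠ 2) {N : ℕ} : VN p 0 N (hh p fun q => X ^ q) :=
  VN.hh h2 fun q => VN.X.pow q

theorem hA_VN (h2 : p ≠ 2) {N : ℕ} : VN p 0 N (hh p Aq) :=
  VN.hh h2 fun q => VN.Aq q

theorem MhX_VN (h2 : p ≠ 2) {N : ℕ} : VN p 2 N (MM (hh p fun q => X ^ q)) :=
  VN.MM_hh h2 (ε := 1) (by simp) (fun q => VN.X.pow q) MM_X_pow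

theorem MhA_VN (h2 : p ≠ 2) {N : ℕ} : VN p 2 N (MM (hh p Aq)) :=
  VN.MM_hh h2 (ε := -1) (by simp) (fun q => VN.Aq q) MM_Aq

theorem H_K {h : ℚ⟦X⟧} (h2 : p ≠ 2) (hM : VN p 2 (p ^ 2 - 1) (MM h)) :
    VN p 2 (p ^ 2 - 1) (h * MM serK - serK * MM h) := by
  rw [MM_serK, mul_zero, zero_sub]
  exact ((VN.serK h2).imul hM).neg

theorem H_B {h : ℚ⟦X⟧} (h2 : p ≠ 2) (hh : VN p 0 (p ^ 2 - 1) h)
    (hM : VN p 2 (p ^ 2 - 1) (MM h)) :
    VN p 0 (p ^ 2 - 1) (h * MM serB - serB * MM h) := by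
  rw [MM_serB]
  refine VN.sub (hh.imul (VN.imul (VN.C (by rw [norm_mquarter h2]; simp)) VN.geo)) ?_
  have := (VN.serB (p := p) h2 (Nat.sub_le (p ^ 2) 1)).mul hM
  exact this.mono (by norm_num) le_rfl

theorem H_B2 {h : ℚ⟦X⟧} (h2 : p ≠ 2) (hh : VN p 0 (p ^ 2 - 1) h)
    (hM : VN p 2 (p ^ 2 - 1) (MM h)) :
    VN p 0 (p ^ 2 - 1) (h * MM serB2 - serB2 * MM h) := by
  rw [MM_serB2]
  refine VN.sub (hh.imul (VN.C (by rw [norm_mquarter h2]; simp))) ?_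
  have := (VN.serB2 (p := p) h2 (Nat.sub_le (p ^ 2) 1)).mul hM
  exact this.mono (by norm_num) le_rfl

end

end Vale.Agent.P030.H392
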