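import Vale.Agent.P030.H611.KapI
import Vale.Agent.P030.H392.MidA

/-!
# P030, odd primes, middle range: the table of values from the canonical reductions
-/

set_option linter.unusedSectionVars false
set_option linter.unnecessarySimpa false
set_option linter.unusedSimpArgs false

open PowerSeries

namespace Vale.Agent.P030.H392

open Vale.Agent.P030.T Vale.Agent.P030.H792 Vale.Agent.P030.H611

variable {p : ℕ} [hp : Fact p.Prime]

/-! ### rational coefficients of order `0` and `1` -/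

theorem q0_mul (f g : ℚ⟦X⟧) : coeff 0 (f * g) = coeff 0 f * coeff 0 g := by
  simp [coeff_zero_eq_constantCoeff]

theorem q1_mul (f g : ℚ⟦X⟧) :
    coeff 1 (f * g) = coeff 0 f * coeff 1 g + coeff 1 f * coeff 0 g := by
  rw [coeff_mul, Finset.Nat.sum_antidiagonal_eq_sum_range_succ_mk, Finset.sum_range_succ,
    Finset.sum_range_one]

theorem q0_lgm : coeff 0 T.lgm = 0 := by simp [T.lgm]
theorem q1_lgm : coeff 1 T.lgm = 1 := by simp [T.lgm]
theorem q0_lgp : coeff 0 T.lgp = 0 := by simp [T.lgp]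
theorem q1_lgp : coeff 1 T.lgp = 1 := by simp [T.lgp]
theorem q0_li2 : coeff 0 T.li2 = 0 := by simp [T.li2]
theorem q1_li2 : coeff 1 T.li2 = 1 := by simp [T.li2]
theorem q0_integ (f : ℚ⟦X⟧) : coeff 0 (integ f) = 0 := by simp [T.integ]
theorem q1_integ (f : ℚ⟦X⟧) : coeff 1 (integ f) = coeff 0 f := by simp [T.integ]
theorem q0_C (q : ℚ) : coeff 0 (C q : ℚ⟦X⟧) = q := by simp
theorem q1_C (q : ℚ) : coeff 1 (C q : ℚ⟦X⟧) = 0 := by rw [coeff_C, if_neg (by decide)]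
theorem q0_one : coeff 0 (1 : ℚ⟦X⟧) = 1 := by simp
theorem q1_one : coeff 1 (1 : ℚ⟦X⟧) = 0 := by rw [coeff_one, if_neg (by decide)]
theorem q0_X : coeff 0 (X : ℚ⟦X⟧) = 0 := by rw [coeff_X, if_neg (by decide)]
theorem q1_X : coeff 1 (X : ℚ⟦X⟧) = 1 := by rw [coeff_X, if_pos rfl]
theorem q0_zero : coeff 0 (0 : ℚ⟦X⟧) = 0 := by simp
theorem q1_zero : coeff 1 (0 : ℚ⟦X⟧) = 0 := by simp
theorem q0_dd (f : ℚ⟦X⟧) : coeff 0 (dd f) = coeff 1 f := by rw [cf_dd]; simp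
theorem q0_th (f : ℚ⟦X⟧) : coeff 0 (th f) = 0 := by rw [cf_th]; simp
theorem q1_th (f : ℚ⟦X⟧) : coeff 1 (th f) = coeff 1 f := by rw [cf_th]; simp

theorem cast_dv (a b : ℤ) (hb : (b : ZMod p) ≠ 0) : (((a : ℚ) / (b : ℚ) : ℚ) : ZMod p)
    = (a : ZMod p) / (b : ZMod p) := by
  rw [← Rat.divInt_eq_div]
  exact Rat.cast_divInt_of_ne_zero a hb

theorem z_two (h2 : p ≠ 2) : (2 : ZMod p) ≠ 0 := two_ne_zmod h2

theorem z_three (h3 : p ≠ 3) : (3 : ZMod p) ≠ 0 := by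
  intro h
  have h' : ((3 : ℕ) : ZMod p) = 0 := by exact_mod_cast h
  rw [ZMod.natCast_eq_zero_iff] at h'
  exact h3 ((Nat.prime_dvd_prime_iff_eq hp.out Nat.prime_three).1 h')

theorem z_four (h2 : p ≠ 2) : (4 : ZMod p) ≠ 0 := by
  have : (4 : ZMod p) = 2 * 2 := by norm_num
  rw [this]
  exact mul_ne_zero (z_two h2) (z_two h2)

theorem z_eight (h2 : p ≠ 2) : (8 : ZMod p) ≠ 0 := by
  have : (8 : ZMod p) = 2 * 4 := by norm_num
  rw [this]
  exact mul_ne_zero (z_two h2) (z_four h2)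

/-- a rational value and its reduction -/
def Cz (p : ℕ) [Fact p.Prime] (q : ℚ) (z : ZMod p) : Prop := ((q : ℚ) : ZMod p) = z

theorem cz_zero : Cz p 0 0 := by unfold Cz; simp
theorem cz_one : Cz p 1 1 := by unfold Cz; simp
theorem cz_none : Cz p (-1) (-1) := by unfold Cz; simp
theorem cz_half (h2 : p ≠ 2) : Cz p (1 / 2) (1 / 2) := cast_half h2
theorem cz_nhalf (h2 : p ≠ 2) : Cz p (-(1 / 2)) (-(1 / 2)) := by
  unfold Cz; rw [Rat.cast_neg, cast_half h2]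
theorem cz_th (h2 : p ≠ 2) : Cz p (3 / 2) (3 / 2) := by
  have := cast_dv (p := p) 3 2 (by exact_mod_cast z_two h2)
  push_cast at this
  exact this
theorem cz_ft (h3 : p ≠ 3) : Cz p (-(4 / 3)) (-(4 / 3)) := by
  have := cast_dv (p := p) 4 3 (by exact_mod_cast z_three h3)
  push_cast at this
  unfold Cz
  rw [Rat.cast_neg, this]
theorem cz_nq (h2 : p ≠ 2) : Cz p (-(1 / 4)) (-(1 / 4)) := by
  have := cast_dv (p := p) 1 4 (by exact_mod_cast z_four h2)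
  push_cast at this
  unfold Cz
  rw [Rat.cast_neg, this]
theorem cz_ne (h2 : p ≠ 2) : Cz p (-(1 / 8)) (-(1 / 8)) := by
  have := cast_dv (p := p) 1 8 (by exact_mod_cast z_eight h2)
  push_cast at this
  unfold Cz
  rw [Rat.cast_neg, this]
theorem cz_e (h2 : p ≠ 2) : Cz p (1 / 8) (1 / 8) := by
  have := cast_dv (p := p) 1 8 (by exact_mod_cast z_eight h2)
  push_cast at this
  exact this

/-- the slot `j < 6` -/
abbrev sl (j : Fin 6) : Fin 8 := Fin.castLE (by decide) j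

theorem all6 {P : Fin 6 → Prop} (h0 : P 0) (h1 : P 1) (h2 : P 2) (h3 : P 3) (h4 : P 4)
    (h5 : P 5) : ∀ j, P j := by
  intro j
  fin_cases j
  · exact h0
  · exact h1
  · exact h2
  · exact h3
  · exact h4
  · exact h5

theorem cz_eq {q q' : ℚ} {z : ZMod p} (h : q = q') (h1 : Cz p q' z) : Cz p q z := h ▸ h1

theorem t_z1_0 (j : Fin 6) :
    Cz p (coeff 0 (tup0 .z1 (sl j))) ((![1, 0, 0, 0, 0, 0] : Fin 6 → ZMod p) j) := by
  revert j
  refine all6 ?_ ?_ ?_ ?_ ?_ ?_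
  · exact cz_eq q0_one cz_one
  · exact cz_eq q0_zero cz_zero
  · exact cz_eq q0_lgm cz_zero
  · exact cz_eq q0_li2 cz_zero
  · exact cz_eq (q0_integ _) cz_zero
  · refine cz_eq ?_ cz_zero
    change coeff 0 (T.sc (1 / 2) (T.lgm ^ 2)) = 0
    rw [cf_sc, sq, q0_mul, q0_lgm]; norm_num

theorem t_z1_1 (j : Fin 6) :
    Cz p (coeff 1 (tup0 .z1 (sl j))) ((![0, 0, 1, 1, 0, 0] : Fin 6 → ZMod p) j) := by
  revert j
  refine all6 ?_ ?_ ?_ ?_ ?_ ?_
  · exact cz_eq q1_one cz_zero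
  · exact cz_eq q1_zero cz_zero
  · exact cz_eq q1_lgm cz_one
  · exact cz_eq q1_li2 cz_one
  · refine cz_eq ?_ cz_zero
    change coeff 1 (integ (geoa * T.lgm)) = 0
    rw [q1_integ, q0_mul, q0_lgm, mul_zero]
  · refine cz_eq ?_ cz_zero
    change coeff 1 (T.sc (1 / 2) (T.lgm ^ 2)) = 0
    rw [cf_sc, sq, q1_mul, q0_lgm]; norm_num

theorem t_zl_0 (j : Fin 6) :
    Cz p (coeff 0 (tup0 .zl (sl j))) ((![0, 1, 0, 0, 0, 0] : Fin 6 → ZMod p) j) := by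
  revert j
  refine all6 ?_ ?_ ?_ ?_ ?_ ?_
  · exact cz_eq q0_zero cz_zero
  · exact cz_eq q0_one cz_one
  · exact cz_eq q0_zero cz_zero
  · exact cz_eq q0_zero cz_zero
  · refine cz_eq ?_ cz_zero
    change coeff 0 (T.sc (1 / 2) T.lgm + T.lgp) = 0
    rw [map_add, cf_sc, q0_lgm, q0_lgp]; norm_num
  · refine cz_eq ?_ cz_zero
    change coeff 0 (T.sc (1 / 2) T.lgm) = 0
    rw [cf_sc, q0_lgm]; norm_num

theorem t_zl_1 (h2 : p ≠ 2) (j : Fin 6) :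
    Cz p (coeff 1 (tup0 .zl (sl j))) ((![0, 0, 0, 0, 3 / 2, 1 / 2] : Fin 6 → ZMod p) j) := by
  revert j
  refine all6 ?_ ?_ ?_ ?_ ?_ ?_
  · exact cz_eq q1_zero cz_zero
  · exact cz_eq q1_one cz_zero
  · exact cz_eq q1_zero cz_zero
  · exact cz_eq q1_zero cz_zero
  · refine cz_eq ?_ (cz_th h2)
    change coeff 1 (T.sc (1 / 2) T.lgm + T.lgp) = 3 / 2
    rw [map_add, cf_sc, q1_lgm, q1_lgp]; norm_num
  · refine cz_eq ?_ (cz_half h2)
    change coeff 1 (T.sc (1 / 2) T.lgm) = 1 / 2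
    rw [cf_sc, q1_lgm]; norm_num

theorem t_w1_0 (j : Fin 6) :
    Cz p (coeff 0 (tup0 .w1 (sl j))) ((![1, 0, 0, 0, 0, 0] : Fin 6 → ZMod p) j) := by
  revert j
  refine all6 ?_ ?_ ?_ ?_ ?_ ?_
  · exact cz_eq q0_one cz_one
  · exact cz_eq q0_zero cz_zero
  · refine cz_eq ?_ cz_zero
    change coeff 0 (-T.lgm) = 0
    rw [map_neg, q0_lgm, neg_zero]
  · refine cz_eq ?_ cz_zero
    change coeff 0 (-T.sc 2 (integ (geo2 * T.lgm))) = 0
    rw [map_neg, cf_sc, q0_integ]; norm_num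
  · refine cz_eq ?_ cz_zero
    change coeff 0 (-T.li2 - T.sc (1 / 2) (T.lgm ^ 2)) = 0
    rw [map_sub, map_neg, cf_sc, sq, q0_mul, q0_lgm, q0_li2]; norm_num
  · refine cz_eq ?_ cz_zero
    change coeff 0 (T.sc (1 / 2) (T.lgm ^ 2)) = 0
    rw [cf_sc, sq, q0_mul, q0_lgm]; norm_num

theorem t_w1_1 (j : Fin 6) :
    Cz p (coeff 1 (tup0 .w1 (sl j))) ((![0, 0, -1, 0, -1, 0] : Fin 6 → ZMod p) j) := by
  revert j
  refine all6 ?_ ?_ ?_ ?_ ?_ ?_
  · exact cz_eq q1_one cz_zero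
  · exact cz_eq q1_zero cz_zero
  · refine cz_eq ?_ cz_none
    change coeff 1 (-T.lgm) = -1
    rw [map_neg, q1_lgm]
  · refine cz_eq ?_ cz_zero
    change coeff 1 (-T.sc 2 (integ (geo2 * T.lgm))) = 0
    rw [map_neg, cf_sc, q1_integ, q0_mul, q0_lgm]; norm_num
  · refine cz_eq ?_ cz_none
    change coeff 1 (-T.li2 - T.sc (1 / 2) (T.lgm ^ 2)) = -1
    rw [map_sub, map_neg, cf_sc, sq, q1_mul, q0_lgm, q1_li2]; norm_num
  · refine cz_eq ?_ cz_zero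
    change coeff 1 (T.sc (1 / 2) (T.lgm ^ 2)) = 0
    rw [cf_sc, sq, q1_mul, q0_lgm]; norm_num

theorem t_wl_0 (j : Fin 6) :
    Cz p (coeff 0 (tup0 .wl (sl j))) ((![0, 1, -1, 0, 0, 0] : Fin 6 → ZMod p) j) := by
  revert j
  refine all6 ?_ ?_ ?_ ?_ ?_ ?_
  · exact cz_eq q0_zero cz_zero
  · exact cz_eq q0_one cz_one
  · refine cz_eq ?_ cz_none
    change coeff 0 (-1 : ℚ⟦X⟧) = -1
    rw [map_neg, q0_one]
  · refine cz_eq ?_ cz_zero
    change coeff 0 (-(T.lgp + T.lgm)) = 0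
    rw [map_neg, map_add, q0_lgp, q0_lgm]; norm_num
  · refine cz_eq ?_ cz_zero
    change coeff 0 (-T.sc (1 / 2) T.lgm) = 0
    rw [map_neg, cf_sc, q0_lgm]; norm_num
  · refine cz_eq ?_ cz_zero
    change coeff 0 (T.sc (1 / 2) T.lgm) = 0
    rw [cf_sc, q0_lgm]; norm_num

theorem cz_ntwo : Cz p (-2) (-2) := by
  unfold Cz
  have : ((2 : ℚ) : ZMod p) = 2 := by
    have := Rat.cast_natCast (α := ZMod p) 2
    exact_mod_cast this
  rw [Rat.cast_neg, this]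

theorem t_wl_1 (h2 : p ≠ 2) (j : Fin 6) : Cz p (coeff 1 (tup0 .wl (sl j)))
    ((![0, 0, 0, -2, -(1 / 2), 1 / 2] : Fin 6 → ZMod p) j) := by
  revert j
  refine all6 ?_ ?_ ?_ ?_ ?_ ?_
  · exact cz_eq q1_zero cz_zero
  · exact cz_eq q1_one cz_zero
  · refine cz_eq ?_ cz_zero
    change coeff 1 (-1 : ℚ⟦X⟧) = 0
    rw [map_neg, q1_one, neg_zero]
  · refine cz_eq ?_ cz_ntwo
    change coeff 1 (-(T.lgp + T.lgm)) = -2
    rw [map_neg, map_add, q1_lgp, q1_lgm]; norm_num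
  · refine cz_eq ?_ (cz_nhalf h2)
    change coeff 1 (-T.sc (1 / 2) T.lgm) = -(1 / 2)
    rw [map_neg, cf_sc, q1_lgm]; norm_num
  · refine cz_eq ?_ (cz_half h2)
    change coeff 1 (T.sc (1 / 2) T.lgm) = 1 / 2
    rw [cf_sc, q1_lgm]; norm_num

theorem t_wy_0 (h3 : p ≠ 3) (j : Fin 6) : Cz p (coeff 0 (tup0 .wy (sl j)))
    ((![0, 0, 0, -(4 / 3), -(4 / 3), 0] : Fin 6 → ZMod p) j) := by
  have h : coeff 0 (-C (4 / 3) : ℚ⟦X⟧) = -(4 / 3) := by rw [map_neg, q0_C]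
  revert j
  refine all6 ?_ ?_ ?_ ?_ ?_ ?_
  · exact cz_eq q0_zero cz_zero
  · exact cz_eq q0_zero cz_zero
  · exact cz_eq q0_zero cz_zero
  · exact cz_eq h (cz_ft h3)
  · exact cz_eq h (cz_ft h3)
  · exact cz_eq q0_zero cz_zero

theorem q0_neg1 : coeff 0 (-1 : ℚ⟦X⟧) = -1 := by rw [map_neg, q0_one]

theorem t_v2_0 (j : Fin 6) :
    Cz p (coeff 0 (tup0 .v2 (sl j))) ((![0, 0, 0, -1, -1, 1] : Fin 6 → ZMod p) j) := by
  revert j
  refine all6 ?_ ?_ ?_ ?_ ?_ ?_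
  · exact cz_eq q0_zero cz_zero
  · exact cz_eq q0_zero cz_zero
  · exact cz_eq q0_zero cz_zero
  · exact cz_eq q0_neg1 cz_none
  · exact cz_eq q0_neg1 cz_none
  · exact cz_eq q0_one cz_one

theorem t_vl_0 (j : Fin 6) :
    Cz p (coeff 0 (tup0 .vl (sl j))) ((![0, 0, 0, 0, -1, 1] : Fin 6 → ZMod p) j) := by
  revert j
  refine all6 ?_ ?_ ?_ ?_ ?_ ?_
  · exact cz_eq q0_zero cz_zero
  · exact cz_eq q0_zero cz_zero
  · exact cz_eq q0_zero cz_zero
  · exact cz_eq q0_zero cz_zero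
  · exact cz_eq q0_neg1 cz_none
  · exact cz_eq q0_one cz_one

theorem t_v8_0 (j : Fin 6) :
    Cz p (coeff 0 (tup0 .v8 (sl j))) ((![0, 0, 0, 0, 0, 0] : Fin 6 → ZMod p) j) := by
  revert j
  refine all6 ?_ ?_ ?_ ?_ ?_ ?_ <;> exact cz_eq q0_zero cz_zero

theorem t_vb_0 (j : Fin 6) :
    Cz p (coeff 0 (tup0 .vb (sl j))) ((![0, 0, 1, 0, 0, 0] : Fin 6 → ZMod p) j) := by
  revert j
  refine all6 ?_ ?_ ?_ ?_ ?_ ?_
  · exact cz_eq q0_zero cz_zero
  · exact cz_eq q0_zero cz_zero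
  · exact cz_eq q0_one cz_one
  · exact cz_eq q0_zero cz_zero
  · exact cz_eq q0_lgp cz_zero
  · exact cz_eq q0_lgm cz_zero

theorem t_x2_0 (h2 : p ≠ 2) (j : Fin 6) :
    Cz p (coeff 0 (tup0 .x2 (sl j))) ((![0, 0, 0, 0, 0, 1 / 2] : Fin 6 → ZMod p) j) := by
  revert j
  refine all6 ?_ ?_ ?_ ?_ ?_ ?_
  · exact cz_eq q0_zero cz_zero
  · exact cz_eq q0_zero cz_zero
  · exact cz_eq q0_zero cz_zero
  · exact cz_eq q0_zero cz_zero
  · exact cz_eq q0_zero cz_zero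
  · exact cz_eq (q0_C _) (cz_half h2)

/-! ### the elliptic slots -/

theorem e_z1_0 : coeff 0 (tF .z1) = 0 := by
  change coeff 0 ((1 - X) * serB) = 0
  rw [q0_mul, B0, mul_zero]

theorem e_z1_1 : coeff 1 (tF .z1) = -(1 / 4) := by
  change coeff 1 ((1 - X) * serB) = _
  rw [q1_mul, B0, B1, map_sub, q0_one, q0_X]; norm_num

theorem e_w1_0 : coeff 0 (tF .w1) = 0 := by
  change coeff 0 serB2 = 0
  rw [D0]

theorem e_w1_1 : coeff 1 (tF .w1) = -(1 / 4) := by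
  change coeff 1 serB2 = _
  rw [D1]; norm_num

theorem e_wy_0 : coeff 0 (tF .wy) = -1 := by
  change coeff 0 (-serK) = -1
  rw [map_neg, K0]

theorem e_v8_0 : coeff 0 (tF .v8) = -1 := by
  change coeff 0 (-((1 - X) * serK)) = -1
  rw [map_neg, q0_mul, K0, map_sub, q0_one, q0_X]; norm_num

theorem e_x2_0 : coeff 0 (tF .x2) = 1 / 8 := by
  change coeff 0 (sc (1 / 8) serK) = 1 / 8
  rw [cf_sc, K0, mul_one]

theorem f_z1_0 : coeff 0 (tup0 .z1 7) = 0 := by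
  change coeff 0 ((1 - X) * th serB) = 0
  rw [q0_mul, q0_th, mul_zero]

theorem f_z1_1 : coeff 1 (tup0 .z1 7) = -(1 / 4) := by
  change coeff 1 ((1 - X) * th serB) = _
  rw [q1_mul, q0_th, q1_th, B1, map_sub, q0_one, q0_X]; norm_num

theorem f_w1_0 : coeff 0 (tup0 .w1 7) = -(1 / 8) := by
  change coeff 0 (tw serB2) = _
  rw [cf_tw, q0_mul, q0_dd, q1_mul, D0, D1, map_add, map_sub, q0_one, q0_X]; norm_num

theorem f_v8_0 : coeff 0 (tup0 .v8 7) = 1 := by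
  change coeff 0 ((1 - X) * dd (X * serK)) = 1
  rw [q0_mul, q0_dd, q1_mul, K0, q1_X, q0_X, map_sub, q0_one, q0_X]; norm_num

theorem f_x2_0 : coeff 0 (tup0 .x2 7) = 0 := by
  change coeff 0 (sc (1 / 8) (X * tw serK)) = 0
  rw [cf_sc, q0_mul, q0_X]; norm_num

/-- **the table of values from the canonical reductions** -/
theorem midTab_of (h2 : p ≠ 2) (h3 : p ≠ 3) {m : MidDat p} {q : ZMod p} {e : Gp → ZMod p}
    (he : ∀ g, g ≠ .z8 → g ≠ .v8 → e g = q) (he8 : e .v8 = 1)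
    (hph : ∀ (g : Gp) (j : Fin 6) (n : ℕ), n < ordk g → coeff n (m.phi g j)
      = ((coeff n (tup0 g (sl j)) : ℚ) : ZMod p))
    (hbe : ∀ (g : Gp) (n : ℕ), n < ordk g → coeff n (m.beta g)
      = e g * ((coeff n (tF g) : ℚ) : ZMod p))
    (hta : ∀ (g : Gp) (n : ℕ), n < ordk g → coeff n (m.tau g)
      = e g * ((coeff n (tup0 g 7) : ℚ) : ZMod p)) : MidTab m q where
  z1_0 j := (hph .z1 j 0 (by decide)).trans (t_z1_0 j)
  z1_1 j := (hph .z1 j 1 (by decide)).trans (t_z1_1 j)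
  zl_0 j := (hph .zl j 0 (by decide)).trans (t_zl_0 j)
  zl_1 j := (hph .zl j 1 (by decide)).trans (t_zl_1 h2 j)
  w1_0 j := (hph .w1 j 0 (by decide)).trans (t_w1_0 j)
  w1_1 j := (hph .w1 j 1 (by decide)).trans (t_w1_1 j)
  wl_0 j := (hph .wl j 0 (by decide)).trans (t_wl_0 j)
  wl_1 j := (hph .wl j 1 (by decide)).trans (t_wl_1 h2 j)
  wy_0 j := (hph .wy j 0 (by decide)).trans (t_wy_0 h3 j)
  v2_0 j := (hph .v2 j 0 (by decide)).trans (t_v2_0 j)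
  vl_0 j := (hph .vl j 0 (by decide)).trans (t_vl_0 j)
  v8_0 j := (hph .v8 j 0 (by decide)).trans (t_v8_0 j)
  vb_0 j := (hph .vb j 0 (by decide)).trans (t_vb_0 j)
  x2_0 j := (hph .x2 j 0 (by decide)).trans (t_x2_0 h2 j)
  b_z1_0 := by rw [hbe .z1 0 (by decide), e_z1_0, Rat.cast_zero, mul_zero]
  b_z1_1 := by
    rw [hbe .z1 1 (by decide), e_z1_1, cz_nq h2, he .z1 (by decide) (by decide)]; ring
  b_zl_0 := by
    rw [hbe .zl 0 (by decide), show coeff 0 (tF .zl) = 0 from q0_zero, Rat.cast_zero, mul_zero]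
  b_zl_1 := by
    rw [hbe .zl 1 (by decide), show coeff 1 (tF .zl) = 0 from q1_zero, Rat.cast_zero, mul_zero]
  b_w1_0 := by rw [hbe .w1 0 (by decide), e_w1_0, Rat.cast_zero, mul_zero]
  b_w1_1 := by
    rw [hbe .w1 1 (by decide), e_w1_1, cz_nq h2, he .w1 (by decide) (by decide)]; ring
  b_wl_0 := by
    rw [hbe .wl 0 (by decide), show coeff 0 (tF .wl) = 0 from q0_zero, Rat.cast_zero, mul_zero]
  b_wl_1 := by
    rw [hbe .wl 1 (by decide), show coeff 1 (tF .wl) = 0 from q1_zero, Rat.cast_zero, mul_zero]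
  b_wy_0 := by
    rw [hbe .wy 0 (by decide), e_wy_0, cz_none, he .wy (by decide) (by decide)]; ring
  b_v2_0 := by
    rw [hbe .v2 0 (by decide), show coeff 0 (tF .v2) = 0 from q0_zero, Rat.cast_zero, mul_zero]
  b_vl_0 := by
    rw [hbe .vl 0 (by decide), show coeff 0 (tF .vl) = 0 from q0_zero, Rat.cast_zero, mul_zero]
  b_v8_0 := by rw [hbe .v8 0 (by decide), e_v8_0, cz_none, he8]; ring
  b_vb_0 := by
    rw [hbe .vb 0 (by decide), show coeff 0 (tF .vb) = 0 from q0_zero, Rat.cast_zero, mul_zero]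
  b_x2_0 := by
    rw [hbe .x2 0 (by decide), e_x2_0, cz_e h2, he .x2 (by decide) (by decide)]; ring
  t_z1_0 := by rw [hta .z1 0 (by decide), f_z1_0, Rat.cast_zero, mul_zero]
  t_z1_1 := by
    rw [hta .z1 1 (by decide), f_z1_1, cz_nq h2, he .z1 (by decide) (by decide)]; ring
  t_zl_0 := by
    rw [hta .zl 0 (by decide), show coeff 0 (tup0 .zl 7) = 0 from q0_zero, Rat.cast_zero, mul_zero]
  t_zl_1 := by
    rw [hta .zl 1 (by decide), show coeff 1 (tup0 .zl 7) = 0 from q1_zero, Rat.cast_zero, mul_zero]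
  t_w1_0 := by
    rw [hta .w1 0 (by decide), f_w1_0, cz_ne h2, he .w1 (by decide) (by decide)]; ring
  t_wl_0 := by
    rw [hta .wl 0 (by decide), show coeff 0 (tup0 .wl 7) = 0 from q0_zero, Rat.cast_zero, mul_zero]
  t_v2_0 := by
    rw [hta .v2 0 (by decide), show coeff 0 (tup0 .v2 7) = 0 from q0_zero, Rat.cast_zero, mul_zero]
  t_vl_0 := by
    rw [hta .vl 0 (by decide), show coeff 0 (tup0 .vl 7) = 0 from q0_zero, Rat.cast_zero, mul_zero]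
  t_v8_0 := by rw [hta .v8 0 (by decide), f_v8_0, Rat.cast_one, he8, mul_one]
  t_vb_0 := by
    rw [hta .vb 0 (by decide), show coeff 0 (tup0 .vb 7) = 0 from q0_zero, Rat.cast_zero, mul_zero]
  t_x2_0 := by rw [hta .x2 0 (by decide), f_x2_0, Rat.cast_zero, mul_zero]

end Vale.Agent.P030.H392
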