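import Vale.Agent.P030.H392.Tab1
import Vale.Agent.P030.H792.MidAdapt
import Vale.Agent.P030.H778.OdA

/-!
# P030, odd primes, middle range: the class gain of design A from the table of reductions
-/

set_option linter.unusedSectionVars false
set_option linter.unnecessarySimpa false
set_option linter.unusedSimpArgs false

open PowerSeries

namespace Vale.Agent.P030.H392

open Vale.Agent.P030.T Vale.Agent.P030.H792 Vale.Agent.P030.H611

/-- the low coefficients of the data are the canonical ones -/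
structure Canon (p : ℕ) [Fact p.Prime] (m : MidDat p) (q : ZMod p) (e : Gp → ZMod p) : Prop where
  he : ∀ g, g ≠ .z8 → g ≠ .v8 → e g = q
  he8 : e .v8 = 1
  hph : ∀ (g : Gp) (j : Fin 6) (n : ℕ), n < ordk g → coeff n (m.phi g j)
    = ((coeff n (tup0 g (Fin.castLE (by decide) j)) : ℚ) : ZMod p)
  hbe : ∀ (g : Gp) (n : ℕ), n < ordk g → coeff n (m.beta g)
    = e g * ((coeff n (tF g) : ℚ) : ZMod p)
  hta : ∀ (g : Gp) (n : ℕ), n < ordk g → coeff n (m.tau g)
    = e g * ((coeff n (tup0 g 7) : ℚ) : ZMod p)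

/-- all the reductions which the class gain needs -/
def TabAll : Prop :=
  ∀ (p : ℕ) [Fact p.Prime], 5 ≤ p → ∀ N : Gp → ℕ, (∀ g, N g + 2 ≤ p ^ 2) →
    (∀ g : Gp, ¬ (g.cusp = 0 ∨ g.cusp = 1) → N g ≤ p) →
    ∃ (m : MidDat p) (q : ZMod p) (e : Gp → ZMod p), RdTab p m N ∧ Canon p m q e

theorem midIn_of_tab {c0 : ℕ} (h : TabAll) : MidIn c0 := by
  intro p hp hp5 s x hx h1 h2 h3 h4
  have hN : ∀ g : Gp, H579.parA.ht g * s + c0 + 2 ≤ p ^ 2 := by
    intro g
    have h8 : H579.parA.ht g ≤ 32 := by cases g <;> decide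
    have h9 := Nat.mul_le_mul_right s h8
    omega
  obtain ⟨m, q, e, hm, hc⟩ := h p hp5 (fun g => H579.parA.ht g * s + c0) hN (by
    intro g hg
    have h8 : H579.parA.ht g ≤ 12 := by
      cases g <;> first | decide | exact absurd (by decide) hg
    have h9 := Nat.mul_le_mul_right s h8
    show H579.parA.ht g * s + c0 ≤ p
    omega)
  refine ⟨m, q, midHyp_of_tab (by omega) hx (fun g => ?_) hm,
    midTab_of (by omega) (by omega) hc.he hc.he8 hc.hph hc.hbe hc.hta⟩
  have := hN g
  show H579.parA.ht g * s + c0 + 1 ≤ p ^ 2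
  omega

/-- the cost in the middle range -/
noncomputable def phiM (q : ℝ) : ℝ :=
  if q < 15 then 143 - 5 * q
  else if q < 16 then 83 - q
  else 5 * q - 13

/-- **the local range `[13, 17.2)` of the class gain** -/
theorem locRange_in {c0 : ℕ} (hin : MidIn c0) :
    LocRange H579.parA c0 13 (86 / 5) phiM := by
  intro x η hη
  obtain ⟨s1, hs1⟩ := exists_nat_gt ((17 * c0 + 1 + 8 * c0 : ℤ) / η : ℝ)
  refine ⟨max s1 (c0 + 2), fun s hs p hpp hp2 hxp hap hbp σ hσ hdet => ?_⟩
  have := Fact.mk hpp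
  have hsc : c0 + 2 ≤ s := (le_max_right _ _).trans hs
  have hs0 : (0 : ℝ) < s := by
    have : 1 ≤ s := by omega
    exact_mod_cast this
  have hss1 : (s1 : ℝ) ≤ s := by exact_mod_cast (le_max_left _ _).trans hs
  have hC : ((17 * c0 + 1 + 8 * c0 : ℤ) : ℝ) ≤ η * s := by
    have h1 := (div_lt_iff₀ hη).1 hs1
    have h2 := mul_le_mul_of_nonneg_right hss1 hη.le
    linarith
  rw [le_div_iff₀ hs0] at hap
  rw [div_lt_iff₀ hs0] at hbp
  have n1 : 13 * s ≤ p := by
    have : (13 : ℝ) * s ≤ p := by linarith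
    exact_mod_cast this
  have n2 : 5 * p < 86 * s := by
    have : (5 : ℝ) * p < 86 * s := by linarith
    exact_mod_cast this
  have hp5 : 5 ≤ p := by omega
  have hsq : 32 * s + c0 + 2 ≤ p ^ 2 := by nlinarith
  have hxn := norm_x_le_one hxp
  set v := padicValRat p (Mx (H579.parA.D0 * s) x σ).det with hv
  have hps : (s : ℝ) * ((p : ℝ) / s) = p := by field_simp
  have key : ∀ y : ℕ, 27 * s ≤ 2 * p + y → y + p ≤ 27 * s → y ≤ p →
      gainA s p y - (65 * s + p) - (17 * c0 + 1 + 8 * c0) ≤ v := by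
    intro y hy1 hy2 hy3
    have h6 := count_A hin p hp5 s y x σ hσ hdet hxn (by omega) hy1 (by omega) hy2 hsq (by omega)
      hy3
    have h7 := sum_wg_A hσ
    have h8 := latIdx_B (p := p) (D := H579.parA.D0 * s) (by omega) (by
      have : H579.parA.D0 = 27 := rfl
      rw [this]; omega)
    rw [h8] at h6
    have hD : ((H579.parA.D0 * s : ℕ) : ℤ) = 27 * s := by
      have : H579.parA.D0 = 27 := rfl
      rw [this]; push_cast; ring
    rw [hD] at h6
    linarith
  unfold phiM
  by_cases h15 : p < 15 * s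
  · have g := key (2 * s) (by omega) (by omega) (by omega)
    have hr : (p : ℝ) / s < 15 := by
      rw [div_lt_iff₀ hs0]; exact_mod_cast h15
    rw [if_pos hr]
    have e : gainA s p (2 * s) = 6 * p - 78 * s := by
      unfold gainA
      omega
    rw [e] at g
    have g' : ((6 * p - 78 * s - (65 * s + p) - (17 * c0 + 1 + 8 * c0) : ℤ) : ℝ) ≤ (v : ℝ) := by
      exact_mod_cast g
    push_cast at g' hC
    have : (s : ℝ) * (143 - 5 * ((p : ℝ) / s) + η) = 143 * s - 5 * (s * ((p : ℝ) / s)) + η * s := by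
      ring
    rw [this, hps]
    linarith
  · by_cases h16 : p < 16 * s
    · have g := key (32 * s - 2 * p) (by omega) (by omega) (by omega)
      have hr : ¬ (p : ℝ) / s < 15 := by
        rw [not_lt, le_div_iff₀ hs0]; exact_mod_cast not_lt.1 h15
      have hr' : (p : ℝ) / s < 16 := by
        rw [div_lt_iff₀ hs0]; exact_mod_cast h16
      rw [if_neg hr, if_pos hr']
      have e : gainA s p (32 * s - 2 * p) = 2 * p - 18 * s := by
        unfold gainA
        omega
      rw [e] at g
      have g' : ((2 * p - 18 * s - (65 * s + p) - (17 * c0 + 1 + 8 * c0) : ℤ) : ℝ) ≤ (v : ℝ) := by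
        exact_mod_cast g
      push_cast at g' hC
      have : (s : ℝ) * (83 - ((p : ℝ) / s) + η) = 83 * s - (s * ((p : ℝ) / s)) + η * s := by
        ring
      rw [this, hps]
      linarith
    · have g := key 0 (by omega) (by omega) (by omega)
      have hr : ¬ (p : ℝ) / s < 15 := by
        rw [not_lt, le_div_iff₀ hs0]; exact_mod_cast not_lt.1 h15
      have hr' : ¬ (p : ℝ) / s < 16 := by
        rw [not_lt, le_div_iff₀ hs0]; exact_mod_cast not_lt.1 h16
      rw [if_neg hr, if_neg hr']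
      have e : gainA s p 0 = 78 * s - 4 * p := by
        unfold gainA
        omega
      rw [e] at g
      have g' : ((78 * s - 4 * p - (65 * s + p) - (17 * c0 + 1 + 8 * c0) : ℤ) : ℝ) ≤ (v : ℝ) := by
        exact_mod_cast g
      push_cast at g' hC
      have : (s : ℝ) * (5 * ((p : ℝ) / s) - 13 + η) = 5 * (s * ((p : ℝ) / s)) - 13 * s + η * s := by
        ring
      rw [this, hps]
      linarith

theorem phiM_le_phiA {q : ℝ} (h1 : 13 ≤ q) (h2 : q < 86 / 5) : phiM q ≤ phiA q := by
  unfold phiM phiA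
  split_ifs <;> linarith

theorem locRange_sub {P : Par} {c0 : ℕ} {a b a' : ℝ} {φ : ℝ → ℝ} (h : LocRange P c0 a b φ)
    (ha : a ≤ a') : LocRange P c0 a' b φ := by
  intro x η hη
  obtain ⟨s0, h0⟩ := h x η hη
  exact ⟨s0, fun s hs p a1 a2 a3 a4 a5 σ hσ hdet =>
    h0 s hs p a1 a2 a3 (ha.trans a4) a5 σ hσ hdet⟩

/-- **the odd part of design A from the reductions** -/
theorem stOD_A_in {c0 : ℕ} (hin : MidIn c0) : StOD H579.parA c0 (34961 / 20) :=
  H792.stOD_A_of c0 (locRange_sub ((locRange_in hin).mono fun _ h1 h2 => phiM_le_phiA h1 h2)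
    (by norm_num)) (H778.hI_A c0)

theorem stOD_A_tab (c0 : ℕ) (h : TabAll) : StOD H579.parA c0 (34961 / 20) :=
  stOD_A_in (midIn_of_tab h)

end Vale.Agent.P030.H392
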