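import Vale.Agent.P030.H392.Tab2
import Vale.Agent.P030.H678.RdAll
import Vale.Agent.P030.H611.KapL
import Vale.Agent.P030.H641.Adapt
import Vale.Agent.P030.H778.OdB

/-!
# P030, odd primes: the data of the table are canonical, the odd part of design A
-/

set_option linter.unusedSectionVars false

open PowerSeries

namespace Vale.Agent.P030.H392

open Vale.Agent.P030.T Vale.Agent.P030.H792 Vale.Agent.P030.H611

variable {p : ℕ} [hp : Fact p.Prime]

theorem bet_eq (g : Gp) : H678.bet p g = C (H678.sg p g) * tF g := by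
  cases g
  case z1 =>
    show (1 - X) * (C (H678.chi p) * serB) = C (H678.chi p) * ((1 - X) * serB)
    ring
  case zl => exact (mul_zero _).symm
  case z8 =>
    show (1 - X) * serK = C 1 * ((1 - X) * serK)
    rw [map_one, one_mul]
  case zab => exact (mul_zero _).symm
  case w1 => rfl
  case wl => exact (mul_zero _).symm
  case wy => exact (mul_neg _ _).symm
  case w8 => rfl
  case wab => exact (mul_zero _).symm
  case wf7 => exact (mul_zero _).symm
  case v2 => exact (mul_zero _).symm
  case vl => exact (mul_zero _).symm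
  case v8 =>
    show -((1 - X) * serK) = C 1 * (-((1 - X) * serK))
    rw [map_one, one_mul]
  case vb => exact (mul_zero _).symm
  case x2 =>
    show C (1 / 8) * (C (H678.chi p) * serK) = C (H678.chi p) * (C (1 / 8) * serK)
    ring
  case xl => exact (mul_neg _ _).symm
  case x1 =>
    show C (1 / 4) * (C (H678.chi p) * serM) = C (H678.chi p) * (C (1 / 4) * serM)
    ring

theorem coeff_sg (g : Gp) {f : ℚ⟦X⟧} (hf : H678.VB p 3 0 f) {n : ℕ} (hn : n < ordk g) :
    coeff n (rdS p (C (H678.sg p g) * f))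
      = ((H678.sg p g : ℚ) : ZMod p) * ((coeff n f : ℚ) : ZMod p) := by
  have h3 : n < 3 := lt_of_lt_of_le hn (ordk_le g)
  rw [coeff_rdS, coeff_C_mul]
  exact red_mul (H678.Vg.norm_le (H678.Vsg g)) (H678.Vg.norm_le (hf n h3))

theorem cast_chi_sq : ((H678.chi p : ℚ) : ZMod p) * ((H678.chi p : ℚ) : ZMod p) = 1 := by
  rw [← red_mul (H678.Vg.norm_le H678.Vchi) (H678.Vg.norm_le H678.Vchi), H678.chi_sq,
    Rat.cast_one]

/-- **the data are canonical** -/
theorem canon (hp5 : 5 ≤ p) : Canon p (H678.mdat p) ((H678.chi p : ℚ) : ZMod p)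
    (fun g => ((H678.sg p g : ℚ) : ZMod p)) where
  he := by
    intro g h1 h2
    cases g <;> first | rfl | exact absurd rfl h1 | exact absurd rfl h2
  he8 := by
    show (((1 : ℚ)) : ZMod p) = 1
    rw [Rat.cast_one]
  hph := fun g j n _ => coeff_rdS _ _
  hbe := by
    intro g n hn
    show coeff n (rdS p (H678.bet p g)) = _
    rw [bet_eq]
    exact coeff_sg g (vb_tF hp5 g) hn
  hta := by
    intro g n hn
    show coeff n (rdS p (H678.ta p g)) = _
    exact coeff_sg g (vb_t7 hp5 g) hn

theorem tabAll : TabAll := fun p _ hp5 N hN _ =>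
  ⟨H678.mdat p, _, _, H678.rdTab (by omega) (by omega) (fun g => by have := hN g; omega),
    canon hp5⟩

/-- **the input of the class gain** -/
theorem midIn (c0 : ℕ) : MidIn c0 := midIn_of_tab tabAll

/-- the kernel vector -/
theorem kapTab (hp5 : 5 ≤ p) : KapTab p (H678.mdat p) ((H678.chi p : ℚ) : ZMod p)
    (fun g => ((H678.sg p g : ℚ) : ZMod p)) :=
  kapTab_of hp5 (canon hp5).he (fun g => by
    cases g <;> first
      | exact cast_chi_sq
      | (show (((1 : ℚ)) : ZMod p) * (((1 : ℚ)) : ZMod p) = 1; rw [Rat.cast_one, mul_one]))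
    (canon hp5).hph (canon hp5).hbe (canon hp5).hta

theorem kapAll (c0 : ℕ) : KapAll c0 := by
  intro p hp hp5 s _ h2 _ _
  refine ⟨H678.mdat p, _, _, H678.rdTab (by omega) (by omega) (fun g => ?_), kapTab hp5⟩
  have h8 : H579.parA.ht g ≤ 32 := by cases g <;> decide
  have h9 := Nat.mul_le_mul_right s h8
  show H579.parA.ht g * s + c0 + 1 ≤ p ^ 2
  omega

theorem redAll (c0 : ℕ) : H641.RedAll c0 :=
  H641.redAll_of_tab fun p _ hp5 N hN _ =>
    ⟨H678.mdat p, H678.rdTab (by omega) (by omega) (fun g => by have := hN g; omega)⟩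

/-- **the odd part of design A, unconditional** -/
theorem stOD_parA (c0 : ℕ) : StOD H579.parA c0 (104393 / 60) :=
  H778.stOD_final c0 (redAll c0) (kapAll c0) (midIn c0)

end Vale.Agent.P030.H392
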